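import Vale.Agent.Lib.P125.Defs

/-!
# Markov type with a small constant forces uniform non-squareness

The random walk on the discrete cube `ι → Bool` (flip a uniformly random coordinate), run for
two steps, gives for every finite family `x : ι → X` the inequality
`∑_{i ≠ j} (‖x i + x j‖^p + ‖x i - x j‖^p) ≤ 4 K^p |ι| ∑_i ‖x i‖^p`.
Taking `n` copies of `x` and `n` copies of `y` and letting `n → ∞` gives
`‖x + y‖^p + ‖x - y‖^p ≤ (4 K^p - 2^(p-1)) (‖x‖^p + ‖y‖^p)`.
-/

namespace Vale.Agent.Lib.P125

open Finset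

section Cube

variable {X : Type*} [NormedAddCommGroup X]
variable {ι : Type} [Fintype ι] [DecidableEq ι]

/-- flip the coordinate `i` -/
def flip (i : ι) (a : ι → Bool) : ι → Bool := Function.update a i (!a i)

omit [Fintype ι] in
lemma flip_flip (i : ι) (a : ι → Bool) : flip i (flip i a) = a := by
  unfold flip
  simp

omit [Fintype ι] in
lemma flip_apply_self (i : ι) (a : ι → Bool) : flip i a i = !a i := by
  unfold flip
  simp

omit [Fintype ι] in
lemma flip_apply_ne (i j : ι) (h : j ≠ i) (a : ι → Bool) : flip i a j = a j := by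
  unfold flip
  simp [Function.update_of_ne h]

/-- the equivalence given by flipping the coordinate `i` -/
def flipEquiv (i : ι) : (ι → Bool) ≃ (ι → Bool) :=
  Function.Involutive.toPerm (flip i) (flip_flip i)

/-- transition matrix of the walk: flip a uniformly random coordinate -/
noncomputable def cubeP : Matrix (ι → Bool) (ι → Bool) ℝ :=
  fun a b => ∑ i : ι, if flip i a = b then (1 / (Fintype.card ι : ℝ)) else 0

/-- the map `a ↦ ∑_{i : a i} x i` -/
def cubeF (x : ι → X) (a : ι → Bool) : X := ∑ i, if a i then x i else 0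

/-- the displacement produced by flipping a coordinate whose current value is `b` -/
def sgn (b : Bool) (v : X) : X := if b then -v else v

lemma cubeP_sum (a : ι → Bool) (G : (ι → Bool) → ℝ) :
    ∑ b, cubeP a b * G b = (1 / (Fintype.card ι : ℝ)) * ∑ i, G (flip i a) := by
  unfold cubeP
  simp only [Finset.sum_mul]
  rw [Finset.sum_comm, Finset.mul_sum]
  apply Finset.sum_congr rfl
  intro i _
  simp only [ite_mul, zero_mul]
  rw [Finset.sum_ite_eq]
  simp

lemma cubeP_symm (a b : ι → Bool) : cubeP a b = cubeP b a := by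
  unfold cubeP
  apply Finset.sum_congr rfl
  intro i _
  have : flip i a = b ↔ flip i b = a := by
    constructor
    · rintro rfl; exact flip_flip i a
    · rintro rfl; exact flip_flip i b
  simp only [this]

lemma cubeF_flip (x : ι → X) (i : ι) (a : ι → Bool) :
    cubeF x (flip i a) = cubeF x a + sgn (a i) (x i) := by
  have h1 : cubeF x (flip i a) = (if flip i a i then x i else 0)
      + ∑ k ∈ univ.erase i, (if a k then x k else 0) := by
    unfold cubeF
    rw [← Finset.add_sum_erase univ _ (mem_univ i)]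
    congr 1
    apply Finset.sum_congr rfl
    intro k hk
    rw [flip_apply_ne i k (Finset.ne_of_mem_erase hk)]
  have h2 : cubeF x a = (if a i then x i else 0)
      + ∑ k ∈ univ.erase i, (if a k then x k else 0) := by
    unfold cubeF
    rw [← Finset.add_sum_erase univ _ (mem_univ i)]
  rw [h1, h2, flip_apply_self]
  cases hai : a i <;> simp [sgn] <;> abel

end Cube

section Main

variable {X : Type*} [NormedAddCommGroup X]

lemma norm_pair (p : ℝ) (b c : Bool) (u v : X) :
    ‖sgn b u + sgn c v‖ ^ p + ‖sgn (!b) u + sgn c v‖ ^ p = ‖u + v‖ ^ p + ‖u - v‖ ^ p := by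
  have h1 : ‖-u + -v‖ = ‖u + v‖ := by rw [← neg_add, norm_neg]
  have h2 : ‖-u + v‖ = ‖u - v‖ := by rw [← norm_neg (u - v)]; congr 1; abel
  have h3 : ‖u + -v‖ = ‖u - v‖ := by rw [sub_eq_add_neg]
  cases b <;> cases c <;> simp only [sgn, Bool.not_true, Bool.not_false, if_true] <;>
    simp only [Bool.false_eq_true, if_false, h1, h2, h3] <;> ring

variable {ι : Type} [Fintype ι] [DecidableEq ι]

/-- The two-step inequality on the cube, for a finite family of vectors. -/
lemma pair_ineq [Nonempty ι] (p K : ℝ) (hp : 0 < p) (hM : HasMarkovType X p K) (x : ι → X) :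
    ∑ i, ∑ j, (if i = j then 0 else (‖x i + x j‖ ^ p + ‖x i - x j‖ ^ p))
      ≤ 4 * K ^ p * (Fintype.card ι : ℝ) * ∑ i, ‖x i‖ ^ p := by
  classical
  set N : ℝ := (Fintype.card ι : ℝ) with hN
  have hNpos : 0 < N := by
    rw [hN]; exact_mod_cast Fintype.card_pos
  set M : ℝ := (Fintype.card (ι → Bool) : ℝ) with hMc
  have hMpos : 0 < M := by
    rw [hMc]; exact_mod_cast Fintype.card_pos
  -- the chain
  have hP0 : ∀ a b : ι → Bool, 0 ≤ cubeP a b := by
    intro a b
    unfold cubeP
    apply Finset.sum_nonneg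
    intro i _
    split_ifs
    · positivity
    · exact le_refl _
  have hrow : ∀ a : ι → Bool, ∑ b, cubeP a b = 1 := by
    intro a
    have := cubeP_sum a (fun _ => (1 : ℝ))
    simp only [mul_one, Finset.sum_const, Finset.card_univ, nsmul_eq_mul] at this
    rw [this, ← hN]
    field_simp
  have hπ0 : ∀ a : ι → Bool, 0 ≤ (fun _ : ι → Bool => 1 / M) a := fun a => by positivity
  have hπ1 : ∑ a : ι → Bool, (fun _ : ι → Bool => 1 / M) a = 1 := by
    simp only [Finset.sum_const, Finset.card_univ, nsmul_eq_mul]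
    rw [← hMc]
    field_simp
  have hrev : ∀ a b : ι → Bool, (fun _ : ι → Bool => 1 / M) a * cubeP a b
      = (fun _ : ι → Bool => 1 / M) b * cubeP b a := by
    intro a b
    simp only
    rw [cubeP_symm a b]
  have key := hM (ι → Bool) cubeP (fun _ => 1 / M) hP0 hrow hπ0 hπ1 hrev (cubeF x) 2 (le_refl _ |>.trans (by norm_num))
  -- the one-step side
  have hone : ∀ a : ι → Bool, ∑ b, cubeP a b * ‖cubeF x a - cubeF x b‖ ^ p
      = (1 / N) * ∑ i, ‖x i‖ ^ p := by
    intro a
    rw [cubeP_sum a (fun b => ‖cubeF x a - cubeF x b‖ ^ p)]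
    congr 1
    apply Finset.sum_congr rfl
    intro i _
    rw [cubeF_flip]
    congr 1
    rw [sub_add_cancel_left]
    unfold sgn
    cases a i <;> simp
  have hE1 : ∑ a : ι → Bool, ∑ b, 1 / M * cubeP a b * ‖cubeF x a - cubeF x b‖ ^ p
      = (1 / N) * ∑ i, ‖x i‖ ^ p := by
    have : ∀ a : ι → Bool, ∑ b, 1 / M * cubeP a b * ‖cubeF x a - cubeF x b‖ ^ p
        = 1 / M * ((1 / N) * ∑ i, ‖x i‖ ^ p) := by
      intro a
      rw [← hone a, Finset.mul_sum]
      apply Finset.sum_congr rfl
      intro b _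
      ring
    simp only [this, Finset.sum_const, Finset.card_univ, nsmul_eq_mul]
    rw [← hMc]
    field_simp
  -- the two-step side
  have htwo : ∀ a : ι → Bool, ∑ c, (cubeP ^ 2) a c * ‖cubeF x a - cubeF x c‖ ^ p
      = (1 / N) * ∑ i, (1 / N) * ∑ j, ‖cubeF x a - cubeF x (flip j (flip i a))‖ ^ p := by
    intro a
    have hsq : ∀ c, (cubeP ^ 2) a c = ∑ b, cubeP a b * cubeP b c := by
      intro c
      rw [pow_two, Matrix.mul_apply]
    simp only [hsq, Finset.sum_mul]
    rw [Finset.sum_comm]
    have : ∀ b : ι → Bool, ∑ c, cubeP a b * cubeP b c * ‖cubeF x a - cubeF x c‖ ^ p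
        = cubeP a b * ((1 / N) * ∑ j, ‖cubeF x a - cubeF x (flip j b)‖ ^ p) := by
      intro b
      rw [← cubeP_sum b (fun c => ‖cubeF x a - cubeF x c‖ ^ p), Finset.mul_sum]
      apply Finset.sum_congr rfl
      intro c _
      ring
    simp only [this]
    rw [cubeP_sum a (fun b => (1 / N) * ∑ j, ‖cubeF x a - cubeF x (flip j b)‖ ^ p)]
  -- averaging over the cube
  have havg : ∀ i j : ι, ∑ a : ι → Bool, ‖cubeF x a - cubeF x (flip j (flip i a))‖ ^ p
      = M / 2 * (if i = j then 0 else (‖x i + x j‖ ^ p + ‖x i - x j‖ ^ p)) := by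
    intro i j
    by_cases hij : i = j
    · subst hij
      simp only [flip_flip, sub_self, norm_zero, if_true, mul_zero]
      rw [Real.zero_rpow (ne_of_gt hp)]
      simp
    · rw [if_neg hij]
      have hT : ∀ a : ι → Bool, ‖cubeF x a - cubeF x (flip j (flip i a))‖ ^ p
          = ‖sgn (a i) (x i) + sgn (a j) (x j)‖ ^ p := by
        intro a
        rw [cubeF_flip, cubeF_flip, flip_apply_ne i j (Ne.symm hij)]
        congr 1
        rw [← norm_neg]
        congr 1
        abel
      have hsum2 : ∑ a : ι → Bool, ‖sgn (a i) (x i) + sgn (a j) (x j)‖ ^ p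
          = ∑ a : ι → Bool, ‖sgn (!a i) (x i) + sgn (a j) (x j)‖ ^ p := by
        rw [← Equiv.sum_comp (flipEquiv i)]
        apply Finset.sum_congr rfl
        intro a _
        have h1 : (flipEquiv i) a i = !a i := flip_apply_self i a
        have h2 : (flipEquiv i) a j = a j := flip_apply_ne i j (Ne.symm hij) a
        rw [h1, h2]
      have hdouble : 2 * ∑ a : ι → Bool, ‖sgn (a i) (x i) + sgn (a j) (x j)‖ ^ p
          = M * (‖x i + x j‖ ^ p + ‖x i - x j‖ ^ p) := by
        rw [two_mul]
        nth_rewrite 2 [hsum2]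
        rw [← Finset.sum_add_distrib]
        simp only [norm_pair, Finset.sum_const, Finset.card_univ, nsmul_eq_mul]
        rw [hMc]
      simp only [hT]
      linarith
  have hE2 : ∑ a : ι → Bool, ∑ c, 1 / M * (cubeP ^ 2) a c * ‖cubeF x a - cubeF x c‖ ^ p
      = (1 / N) * ((1 / N) * ((1 / 2) *
          ∑ i, ∑ j, (if i = j then 0 else (‖x i + x j‖ ^ p + ‖x i - x j‖ ^ p)))) := by
    have h1 : ∀ a : ι → Bool, ∑ c, 1 / M * (cubeP ^ 2) a c * ‖cubeF x a - cubeF x c‖ ^ p
        = 1 / M * ((1 / N) * ∑ i, (1 / N) *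
            ∑ j, ‖cubeF x a - cubeF x (flip j (flip i a))‖ ^ p) := by
      intro a
      rw [← htwo a, Finset.mul_sum]
      apply Finset.sum_congr rfl
      intro c _
      ring
    simp only [h1]
    rw [← Finset.mul_sum, ← Finset.mul_sum, Finset.sum_comm]
    simp only [← Finset.mul_sum]
    have h2 : ∀ i : ι, ∑ a : ι → Bool, ∑ j, ‖cubeF x a - cubeF x (flip j (flip i a))‖ ^ p
        = M / 2 * ∑ j, (if i = j then 0 else (‖x i + x j‖ ^ p + ‖x i - x j‖ ^ p)) := by
      intro i
      rw [Finset.sum_comm, Finset.mul_sum]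
      apply Finset.sum_congr rfl
      intro j _
      exact havg i j
    simp only [h2]
    rw [← Finset.mul_sum]
    field_simp
  rw [hE1, hE2] at key
  have hNN : (1 / N) * ((1 / N) * ((1 / 2) *
      ∑ i, ∑ j, (if i = j then 0 else (‖x i + x j‖ ^ p + ‖x i - x j‖ ^ p)))) * (2 * N * N)
      = ∑ i, ∑ j, (if i = j then 0 else (‖x i + x j‖ ^ p + ‖x i - x j‖ ^ p)) := by
    field_simp
  have hkey2 := mul_le_mul_of_nonneg_right key (by positivity : (0 : ℝ) ≤ 2 * N * N)
  rw [hNN] at hkey2
  refine le_trans hkey2 (le_of_eq ?_)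
  push_cast
  field_simp
  ring

end Main

end Vale.Agent.Lib.P125
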