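import Mathlib

namespace Vale.Agent.Lib.P125

/-- `X` has Markov type `p` with constant `K`: for every stationary reversible Markov chain
`(Z_t)` on a finite state space `S` (transition matrix `P`, stationary distribution `π` with
`π i * P i j = π j * P j i`), every `f : S → X` and every integer `t ≥ 1`,
`E ‖f(Z_t) - f(Z_0)‖^p ≤ K^p * t * E ‖f(Z_1) - f(Z_0)‖^p`. -/
def HasMarkovType (X : Type*) [NormedAddCommGroup X] (p K : ℝ) : Prop :=
  ∀ (S : Type) [Fintype S] [DecidableEq S] (P : Matrix S S ℝ) (π : S → ℝ),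
    (∀ i j, 0 ≤ P i j) → (∀ i, ∑ j, P i j = 1) → (∀ i, 0 ≤ π i) → ∑ i, π i = 1 →
    (∀ i j, π i * P i j = π j * P j i) →
    ∀ (f : S → X) (t : ℕ), 1 ≤ t →
      ∑ i, ∑ j, π i * (P ^ t) i j * ‖f i - f j‖ ^ p ≤
        K ^ p * (t : ℝ) * ∑ i, ∑ j, π i * P i j * ‖f i - f j‖ ^ p

end Vale.Agent.Lib.P125
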