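import Mathlib

/-!
# Marginals of the uniform measure on the discrete cube

For an injective family of coordinates `w : Fin t → ι`, the restriction map
`a ↦ (fun l => a (w l))` from the cube `ι → Bool` to the cube `Fin t → Bool` has all its
fibres of the same size `|ι → Bool| / 2 ^ t`.  Hence a sum over the big cube of a function of
the restricted point is that constant times the sum over the small cube.
-/

namespace Vale.Agent.Lib.P125

open Finset

/-- Summing a function of the coordinates `a (w 0), ..., a (w (t-1))` over the whole cube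
`ι → Bool`, for pairwise distinct coordinates `w l`, gives `|ι → Bool| / 2 ^ t` times the sum
of the function over the cube `Fin t → Bool`. -/
lemma cube_marginal {ι : Type} [Fintype ι] [DecidableEq ι] (t : ℕ) (w : Fin t → ι)
    (hw : Function.Injective w) (Φ : (Fin t → Bool) → ℝ) :
    ∑ a : ι → Bool, Φ (fun l => a (w l))
      = (Fintype.card (ι → Bool) : ℝ) / 2 ^ t * ∑ ε : Fin t → Bool, Φ ε := by
  classical
  -- split the cube into the coordinates in the range of `w` and the other coordinates
  let e1 : (ι → Bool) ≃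
      ({i : ι // i ∈ Set.range w} → Bool) × ({i : ι // ¬ i ∈ Set.range w} → Bool) :=
    Equiv.piEquivPiSubtypeProd (fun i => i ∈ Set.range w) (fun _ => Bool)
  let e2 : Fin t ≃ {i : ι // i ∈ Set.range w} := Equiv.ofInjective w hw
  let e3 : ({i : ι // i ∈ Set.range w} → Bool) ≃ (Fin t → Bool) :=
    Equiv.arrowCongr e2.symm (Equiv.refl Bool)
  let e : (ι → Bool) ≃ (Fin t → Bool) × ({i : ι // ¬ i ∈ Set.range w} → Bool) :=
    e1.trans (Equiv.prodCongr e3 (Equiv.refl _))
  have he : ∀ a : ι → Bool, (e a).1 = fun l => a (w l) := by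
    intro a
    funext l
    simp [e, e1, e3, e2, Equiv.piEquivPiSubtypeProd, Equiv.arrowCongr]
  have hcard : (Fintype.card (ι → Bool) : ℝ)
      = 2 ^ t * (Fintype.card ({i : ι // ¬ i ∈ Set.range w} → Bool) : ℝ) := by
    rw [Fintype.card_congr e, Fintype.card_prod]
    simp
  have h1 : ∑ a : ι → Bool, Φ (fun l => a (w l))
      = ∑ p : (Fin t → Bool) × ({i : ι // ¬ i ∈ Set.range w} → Bool), Φ p.1 := by
    rw [← Equiv.sum_comp e (fun p => Φ p.1)]
    refine Finset.sum_congr rfl (fun a _ => ?_)
    rw [he a]
  rw [h1, Fintype.sum_prod_type, hcard]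
  simp only [Finset.sum_const, Finset.card_univ, nsmul_eq_mul]
  rw [← Finset.mul_sum]
  have h2 : (2 : ℝ) ^ t ≠ 0 := by positivity
  field_simp

end Vale.Agent.Lib.P125
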