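import Vale.Agent.Lib.P125.MultiDefs

/-!
# Evaluating `∑ eps, jval t eps ^ p` for small `t`

* `t = 3`, every real `p`: six sign patterns have `jval = 3` and two have `jval = 1`, so the sum
  is `6 * 3 ^ p + 2`.
* `p = 2`: the sum is a sum of squares of natural numbers and is evaluated by the kernel;
  for `t = 9` it is `13952 = 2 ^ 9 * 9 * (109 / 36)`.

The lemmas `threshold_three`, `threshold_nine` put this in the form
`2 ^ t * t * K ^ p < ∑ eps, jval t eps ^ p`.
-/

namespace Vale.Agent.Lib.P125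

open Finset

namespace H29

/-- for the exponent `2` the sum is the cast of a sum of squares of natural numbers -/
lemma jval_rpow_two_sum (t : ℕ) :
    ∑ eps : Fin t → Bool, (jval t eps : ℝ) ^ (2 : ℝ)
      = ((∑ eps : Fin t → Bool, jval t eps ^ 2 : ℕ) : ℝ) := by
  push_cast
  apply Finset.sum_congr rfl
  intro eps _
  rw [Real.rpow_two]

/-- the values of `jval 3` -/
lemma jval_three_values : ∀ eps : Fin 3 → Bool, jval 3 eps = 3 ∨ jval 3 eps = 1 := by
  decide +kernel

lemma jval_three_card : (Finset.univ.filter fun eps : Fin 3 → Bool => jval 3 eps = 3).card = 6 := by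
  decide +kernel

lemma jval_three_card' :
    (Finset.univ.filter fun eps : Fin 3 → Bool => ¬ jval 3 eps = 3).card = 2 := by
  decide +kernel

lemma jval_sq_sum_nine : ∑ eps : Fin 9 → Bool, jval 9 eps ^ 2 = 13952 := by
  decide +kernel

end H29

/-- `t = 3`: six sign patterns have `jval = 3` and two have `jval = 1`. -/
lemma jval_three_rpow_sum (p : ℝ) :
    ∑ eps : Fin 3 → Bool, (jval 3 eps : ℝ) ^ p = 6 * (3 : ℝ) ^ p + 2 := by
  have h1 : ∀ eps : Fin 3 → Bool,
      (jval 3 eps : ℝ) ^ p = if jval 3 eps = 3 then (3 : ℝ) ^ p else 1 := by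
    intro eps
    rcases H29.jval_three_values eps with h | h
    · rw [h]; simp
    · rw [h]; simp
  simp only [h1]
  rw [Finset.sum_ite, Finset.sum_const, Finset.sum_const, H29.jval_three_card,
    H29.jval_three_card']
  simp

/-- `t = 9`, `p = 2`: the sum of `jval ^ 2` over the `512` sign patterns is `13952`. -/
lemma jval_nine_rpow_two_sum :
    ∑ eps : Fin 9 → Bool, (jval 9 eps : ℝ) ^ (2 : ℝ) = 13952 := by
  rw [H29.jval_rpow_two_sum, H29.jval_sq_sum_nine]
  norm_num

/-- the threshold of the three-step walk: `K ^ p < 3 ^ p / 4 + 1 / 12` -/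
lemma threshold_three (p K : ℝ) (h : K ^ p < (3 : ℝ) ^ p / 4 + 1 / 12) :
    (2 : ℝ) ^ 3 * ((3 : ℕ) : ℝ) * K ^ p < ∑ eps : Fin 3 → Bool, (jval 3 eps : ℝ) ^ p := by
  rw [jval_three_rpow_sum]
  push_cast
  linarith

/-- the threshold of the nine-step walk for `p = 2`: `K ^ 2 < 109 / 36` (in particular
`K ^ 2 ≤ 3` suffices) -/
lemma threshold_nine (K : ℝ) (h : K ^ (2 : ℝ) < 109 / 36) :
    (2 : ℝ) ^ 9 * ((9 : ℕ) : ℝ) * K ^ (2 : ℝ)
      < ∑ eps : Fin 9 → Bool, (jval 9 eps : ℝ) ^ (2 : ℝ) := by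
  rw [jval_nine_rpow_two_sum]
  push_cast
  linarith

end Vale.Agent.Lib.P125
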