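import Vale.Agent.Lib.P125.MultiDefs

/-!
# Lower bounds for signed sums of a sequence with long one-cut sums

Let `x : Fin n → X` have `‖x i‖ ≤ 1` and suppose every one-cut signed sum
`∑_{i ≤ k} x i - ∑_{i > k} x i` has norm `> n - delta`.

* `jnorm_lower_h29`: for a strictly increasing selection `w : Fin t → Fin n` and a sign pattern
  `eps`, the signed sum `∑ l, sgn (eps l) (x (w l))` has norm at least `jval t eps - delta`.
  (Cut the sign pattern at `k`; the cut `w (k - 1)` of the long sequence agrees with it on the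
  selected indices; the full cut sum is the signed sum plus twice the selected vectors with the
  wrong sign plus the unselected vectors, and all of these have norm at most `1`.)
* `jnorm_sum_lower`: for an injective selection `w`, summing the `p`-th powers over all sign
  patterns gives at least `(1 - delta) ^ p * ∑ eps, jval t eps ^ p`.
  (Sort the selection, reindex the signs, and use `(1 - delta) * J ≤ J - delta` for a natural
  number `J ≥ 1`.)
-/

namespace Vale.Agent.Lib.P125

open Finset

namespace H29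

section SumLower

variable {X : Type*} [NormedAddCommGroup X]

/-- reindexing both the summation index and the sign pattern by a permutation -/
lemma sum_sgn_reindex {n t : ℕ} (x : Fin n → X) (w : Fin t → Fin n) (σ : Equiv.Perm (Fin t))
    (eps : Fin t → Bool) :
    ∑ l, sgn ((eps ∘ σ.symm) l) (x (w l)) = ∑ l, sgn (eps l) (x (w (σ l))) := by
  rw [← Equiv.sum_comp σ (fun l => sgn ((eps ∘ σ.symm) l) (x (w l)))]
  apply Finset.sum_congr rfl
  intro l _
  simp

/-- the sum over all sign patterns does not change when the selection is precomposed with a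
permutation -/
lemma sum_eps_reindex {n t : ℕ} (p : ℝ) (x : Fin n → X) (w : Fin t → Fin n)
    (σ : Equiv.Perm (Fin t)) :
    ∑ eps : Fin t → Bool, ‖∑ l, sgn (eps l) (x (w l))‖ ^ p
      = ∑ eps : Fin t → Bool, ‖∑ l, sgn (eps l) (x (w (σ l)))‖ ^ p := by
  rw [← Equiv.sum_comp (Equiv.arrowCongr σ (Equiv.refl Bool))
    (fun eps : Fin t → Bool => ‖∑ l, sgn (eps l) (x (w l))‖ ^ p)]
  apply Finset.sum_congr rfl
  intro eps _
  have h : (Equiv.arrowCongr σ (Equiv.refl Bool)) eps = eps ∘ σ.symm := by
    funext l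
    simp [Equiv.arrowCongr]
  rw [h, sum_sgn_reindex]

/-- one term: `(1 - delta) * J ≤ N` whenever `J - delta ≤ N`, `0 ≤ N` and `J` is a natural
number -/
lemma one_sub_mul_le (delta N : ℝ) (J : ℕ) (hdelta0 : 0 ≤ delta) (hN : 0 ≤ N)
    (h : (J : ℝ) - delta ≤ N) : (1 - delta) * (J : ℝ) ≤ N := by
  rcases Nat.eq_zero_or_pos J with h0 | h1
  · subst h0
    simpa using hN
  · have h1' : (1 : ℝ) ≤ (J : ℝ) := by exact_mod_cast h1
    nlinarith

/-- The generic summation step: a lower bound for every strictly increasing selection gives a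
lower bound for the sum over all sign patterns, for every injective selection. -/
lemma sum_lower_of_lower {n t : ℕ} (p : ℝ) (hp : 0 < p) (x : Fin n → X) (delta : ℝ)
    (hdelta0 : 0 ≤ delta) (hdelta1 : delta ≤ 1) (J : (Fin t → Bool) → ℕ)
    (hJ : ∀ w : Fin t → Fin n, StrictMono w → ∀ eps : Fin t → Bool,
      (J eps : ℝ) - delta ≤ ‖∑ l, sgn (eps l) (x (w l))‖)
    (w : Fin t → Fin n) (hw : Function.Injective w) :
    (1 - delta) ^ p * ∑ eps : Fin t → Bool, (J eps : ℝ) ^ p
      ≤ ∑ eps : Fin t → Bool, ‖∑ l, sgn (eps l) (x (w l))‖ ^ p := by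
  have hmono : Monotone (w ∘ Tuple.sort w) := Tuple.monotone_sort w
  have hinj : Function.Injective (w ∘ Tuple.sort w) := hw.comp (Tuple.sort w).injective
  have hstrict : StrictMono (w ∘ Tuple.sort w) := hmono.strictMono_of_injective hinj
  rw [sum_eps_reindex p x w (Tuple.sort w), Finset.mul_sum]
  apply Finset.sum_le_sum
  intro eps _
  have h1 : (J eps : ℝ) - delta ≤ ‖∑ l, sgn (eps l) (x (w (Tuple.sort w l)))‖ :=
    hJ (w ∘ Tuple.sort w) hstrict eps
  have h2 : (1 - delta) * (J eps : ℝ) ≤ ‖∑ l, sgn (eps l) (x (w (Tuple.sort w l)))‖ :=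
    one_sub_mul_le delta _ (J eps) hdelta0 (norm_nonneg _) h1
  have h3 : (0 : ℝ) ≤ 1 - delta := by linarith
  have h4 : (0 : ℝ) ≤ (J eps : ℝ) := Nat.cast_nonneg _
  rw [← Real.mul_rpow h3 h4]
  exact Real.rpow_le_rpow (mul_nonneg h3 h4) h2 (le_of_lt hp)

end SumLower

section Lower

variable {X : Type*} [NormedAddCommGroup X]

/-- splitting a sum over `Fin n` into the image of an injective selection and the rest -/
lemma sum_split_image {n t : ℕ} (u : Fin n → X) (w : Fin t → Fin n)
    (hw : Function.Injective w) :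
    ∑ i, u i = ∑ l, u (w l) + ∑ i ∈ (Finset.univ.image w)ᶜ, u i := by
  rw [← Finset.sum_image (f := u) (s := Finset.univ) (g := w) (fun a _ b _ h => hw h)]
  exact (Finset.sum_add_sum_compl _ _).symm

/-- the unselected vectors have total norm at most `n - t` -/
lemma norm_rest_le {n t : ℕ} (u : Fin n → X) (hu : ∀ i, ‖u i‖ ≤ 1) (w : Fin t → Fin n)
    (hw : Function.Injective w) :
    ‖∑ i ∈ (Finset.univ.image w)ᶜ, u i‖ ≤ (n : ℝ) - t := by
  have h1 : ‖∑ i ∈ (Finset.univ.image w)ᶜ, u i‖ ≤ ∑ i ∈ (Finset.univ.image w)ᶜ, (1 : ℝ) :=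
    (norm_sum_le _ _).trans (Finset.sum_le_sum fun i _ => hu i)
  have h3 : t ≤ n := by
    simpa using Fintype.card_le_of_injective w hw
  have h2 : ((Finset.univ.image w)ᶜ).card = n - t := by
    rw [Finset.card_compl, Finset.card_image_of_injective _ hw]
    simp
  rw [Finset.sum_const, h2, nsmul_eq_mul, mul_one, Nat.cast_sub h3] at h1
  exact h1

lemma sgn_not (b : Bool) (v : X) : sgn (!b) v = - sgn b v := by
  cases b <;> simp [sgn]

lemma isgn_not (b : Bool) : isgn (!b) = - isgn b := by
  cases b <;> simp [isgn]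

/-- the one-sided bound for a selection of vectors out of a family with a long sum -/
lemma signed_lower {n t : ℕ} (u : Fin n → X) (hu : ∀ i, ‖u i‖ ≤ 1) (delta : ℝ)
    (hcut : (n : ℝ) - delta < ‖∑ i, u i‖) (w : Fin t → Fin n) (hw : Function.Injective w)
    (b : Fin t → Bool) :
    ((∑ l, isgn (b l) : ℤ) : ℝ) - delta ≤ ‖∑ l, sgn (b l) (u (w l))‖ := by
  have h1 : ∑ l, u (w l)
      = ∑ l, sgn (b l) (u (w l)) + ∑ l, (if b l then u (w l) + u (w l) else 0) := by
    rw [← Finset.sum_add_distrib]
    apply Finset.sum_congr rfl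
    intro l _
    cases b l <;> simp [sgn]
  have h2 : ‖∑ l, (if b l then u (w l) + u (w l) else 0)‖
      ≤ ∑ l, (1 - ((isgn (b l) : ℤ) : ℝ)) := by
    refine (norm_sum_le _ _).trans (Finset.sum_le_sum fun l _ => ?_)
    cases hb : b l
    · simp [isgn]
    · simp only [if_true, isgn]
      have hh1 := norm_add_le (u (w l)) (u (w l))
      have hh2 := hu (w l)
      push_cast
      linarith
  have h3 : ∑ l : Fin t, (1 - ((isgn (b l) : ℤ) : ℝ))
      = (t : ℝ) - ((∑ l, isgn (b l) : ℤ) : ℝ) := by
    rw [Finset.sum_sub_distrib]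
    simp
  have h4 := sum_split_image u w hw
  have h5 := norm_rest_le u hu w hw
  have h6 : ‖∑ i, u i‖ ≤ ‖∑ l, sgn (b l) (u (w l))‖
      + ∑ l, (1 - ((isgn (b l) : ℤ) : ℝ)) + ((n : ℝ) - t) := by
    rw [h4, h1]
    refine (norm_add_le _ _).trans ?_
    refine add_le_add ((norm_add_le _ _).trans ?_) h5
    exact add_le_add le_rfl h2
  rw [h3] at h6
  linarith

/-- the two-sided bound -/
lemma signed_lower_abs {n t : ℕ} (u : Fin n → X) (hu : ∀ i, ‖u i‖ ≤ 1) (delta : ℝ)
    (hcut : (n : ℝ) - delta < ‖∑ i, u i‖) (w : Fin t → Fin n) (hw : Function.Injective w)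
    (b : Fin t → Bool) :
    (((∑ l, isgn (b l)).natAbs : ℕ) : ℝ) - delta ≤ ‖∑ l, sgn (b l) (u (w l))‖ := by
  have h1 := signed_lower u hu delta hcut w hw b
  have h2 := signed_lower u hu delta hcut w hw (fun l => !b l)
  have h3 : ∑ l, sgn (!b l) (u (w l)) = - ∑ l, sgn (b l) (u (w l)) := by
    rw [← Finset.sum_neg_distrib]
    exact Finset.sum_congr rfl fun l _ => sgn_not _ _
  have h4 : ∑ l, isgn (!b l) = - ∑ l, isgn (b l) := by
    rw [← Finset.sum_neg_distrib]
    exact Finset.sum_congr rfl fun l _ => isgn_not _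
  rw [h3, norm_neg, h4] at h2
  push_cast at h1 h2
  have h5 : (((∑ l, isgn (b l)).natAbs : ℕ) : ℝ) = |∑ l, ((isgn (b l) : ℤ) : ℝ)| := by
    rw [Nat.cast_natAbs, Int.cast_abs]
    push_cast
    rfl
  rw [h5]
  rcases abs_cases (∑ l, ((isgn (b l) : ℤ) : ℝ)) with ⟨h, _⟩ | ⟨h, _⟩ <;> rw [h] <;> linarith

/-- the bound at a cut `1 ≤ k ≤ t` -/
lemma cut_lower {n t : ℕ} (x : Fin n → X) (hx : ∀ i, ‖x i‖ ≤ 1) (delta : ℝ)
    (hcut : ∀ k : Fin n, (n : ℝ) - delta < ‖∑ i, (if i ≤ k then x i else - x i)‖)
    (w : Fin t → Fin n) (hw : StrictMono w) (eps : Fin t → Bool) (k : ℕ) (hk1 : 1 ≤ k)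
    (hkt : k ≤ t) :
    (((∑ l : Fin t, if l.val < k then isgn (eps l) else - isgn (eps l)).natAbs : ℕ) : ℝ)
      - delta ≤ ‖∑ l, sgn (eps l) (x (w l))‖ := by
  have hk' : k - 1 < t := by omega
  have hu : ∀ i, ‖(if i ≤ w ⟨k - 1, hk'⟩ then x i else - x i)‖ ≤ 1 := by
    intro i
    split_ifs
    · exact hx i
    · rw [norm_neg]; exact hx i
  have hA := signed_lower_abs (fun i => if i ≤ w ⟨k - 1, hk'⟩ then x i else - x i) hu delta
    (hcut (w ⟨k - 1, hk'⟩)) w hw.injective (fun l => if l.val < k then eps l else !eps l)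
  have hiff : ∀ l : Fin t, w l ≤ w ⟨k - 1, hk'⟩ ↔ l.val < k := by
    intro l
    rw [hw.le_iff_le, Fin.le_def]
    simp only
    omega
  have e1 : ∀ l : Fin t, sgn (if l.val < k then eps l else !eps l)
      (if w l ≤ w ⟨k - 1, hk'⟩ then x (w l) else - x (w l)) = sgn (eps l) (x (w l)) := by
    intro l
    simp only [hiff l]
    by_cases h : l.val < k
    · simp [h]
    · simp only [h, if_false]
      rw [sgn_not]
      cases eps l <;> simp [sgn]
  have e2 : ∀ l : Fin t, isgn (if l.val < k then eps l else !eps l)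
      = if l.val < k then isgn (eps l) else - isgn (eps l) := by
    intro l
    by_cases h : l.val < k
    · simp [h]
    · simp [h, isgn_not]
  simp only [e1, e2] at hA
  exact hA

end Lower

end H29

section Main

variable {X : Type*} [NormedAddCommGroup X]

/-- If all one-cut signed sums of `x : Fin n → X` (with `‖x i‖ ≤ 1`) have norm `> n - delta`,
then every signed sum over a strictly increasing selection `w` of `t` indices has norm at least
`jval t eps - delta`. -/
lemma jnorm_lower_h29 {n t : Nat} (x : Fin n -> X)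
    (hx : ∀ i, ‖x i‖ ≤ 1) (delta : Real) (hdelta : 0 ≤ delta)
    (hcut : ∀ k : Fin n, (n : Real) - delta < ‖∑ i, (if i ≤ k then x i else - x i)‖)
    (w : Fin t -> Fin n) (hw : StrictMono w) (eps : Fin t -> Bool) :
    (jval t eps : Real) - delta ≤ ‖∑ l, sgn (eps l) (x (w l))‖ := by
  have key : ∀ k ∈ Finset.range (t + 1),
      (((∑ l : Fin t, if l.val < k then isgn (eps l) else - isgn (eps l)).natAbs : ℕ) : ℝ)
        - delta ≤ ‖∑ l, sgn (eps l) (x (w l))‖ := by
    intro k hk
    have hkt : k ≤ t := by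
      have := Finset.mem_range.mp hk
      omega
    rcases Nat.eq_zero_or_pos t with ht | ht
    · subst ht
      simp only [Finset.univ_eq_empty, Finset.sum_empty, Int.natAbs_zero, Nat.cast_zero,
        norm_zero]
      linarith
    · rcases Nat.eq_zero_or_pos k with hk0 | hk0
      · subst hk0
        have h := H29.cut_lower x hx delta hcut w hw eps t ht le_rfl
        have e : (∑ l : Fin t, if l.val < 0 then isgn (eps l) else - isgn (eps l)).natAbs
            = (∑ l : Fin t, if l.val < t then isgn (eps l) else - isgn (eps l)).natAbs := by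
          have e1 : (∑ l : Fin t, if l.val < 0 then isgn (eps l) else - isgn (eps l))
              = - ∑ l : Fin t, isgn (eps l) := by
            rw [← Finset.sum_neg_distrib]
            exact Finset.sum_congr rfl fun l _ => by simp
          have e2 : (∑ l : Fin t, if l.val < t then isgn (eps l) else - isgn (eps l))
              = ∑ l : Fin t, isgn (eps l) :=
            Finset.sum_congr rfl fun l _ => by simp [l.isLt]
          rw [e1, e2, Int.natAbs_neg]
        rw [e]
        exact h
      · exact H29.cut_lower x hx delta hcut w hw eps k hk0 hkt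
  obtain ⟨k, hk, hsup⟩ := Finset.exists_mem_eq_sup (Finset.range (t + 1))
    ⟨0, by simp⟩
    (fun k => (∑ l : Fin t, if l.val < k then isgn (eps l) else - isgn (eps l)).natAbs)
  unfold jval
  rw [hsup]
  exact key k hk

/-- The summed form, for every injective selection `w` of `t` indices: the sum over all sign
patterns of the `p`-th powers of the norms of the signed sums is at least
`(1 - delta) ^ p * ∑ eps, jval t eps ^ p`. -/
lemma jnorm_sum_lower {n t : Nat} (p : Real) (hp : 0 < p)
    (x : Fin n -> X) (hx : ∀ i, ‖x i‖ ≤ 1) (delta : Real) (hdelta0 : 0 ≤ delta)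
    (hdelta1 : delta ≤ 1)
    (hcut : ∀ k : Fin n, (n : Real) - delta < ‖∑ i, (if i ≤ k then x i else - x i)‖)
    (w : Fin t -> Fin n) (hw : Function.Injective w) :
    (1 - delta) ^ p * ∑ eps : Fin t -> Bool, (jval t eps : Real) ^ p
      ≤ ∑ eps : Fin t -> Bool, ‖∑ l, sgn (eps l) (x (w l))‖ ^ p :=
  H29.sum_lower_of_lower p hp x delta hdelta0 hdelta1 (jval t)
    (fun w' hw' eps => jnorm_lower_h29 x hx delta hdelta0 hcut w' hw' eps) w hw

end Main

end Vale.Agent.Lib.P125
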