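import Vale.Agent.Lib.P125.MultiDefs

/-!
# A lower bound for signed sub-sums of a sequence with large one-cut sums

Let `x 0, ..., x (n-1)` be vectors of norm at most `1` such that every one-cut sum
`x 0 + ... + x k - x (k+1) - ... - x (n-1)` has norm larger than `n - δ`.  Then for every
increasing choice of indices `w 0 < ... < w (t-1)` and every sign pattern `eps`, the signed
sub-sum `∑ l, ± x (w l)` has norm at least `jval t eps - δ`, where `jval t eps` is the largest
absolute value of a one-cut sum of the signs.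
-/

namespace Vale.Agent.Lib.P125

open Finset

section JNorm

variable {X : Type*} [NormedAddCommGroup X]

/-- Core estimate: if `u` has unit-bounded terms and `‖∑ u‖ > n - δ`, and the family `T` over an
injectively embedded index set satisfies `‖u (w l) - T l‖ ≤ 1 - a l`, then
`∑ a - δ ≤ ‖∑ T‖`. -/
lemma norm_sum_lower_of_close {n t : ℕ} (u : Fin n → X) (hu : ∀ i, ‖u i‖ ≤ 1) (δ : ℝ)
    (hsum : (n : ℝ) - δ < ‖∑ i, u i‖) (w : Fin t → Fin n) (hw : Function.Injective w)
    (T : Fin t → X) (a : Fin t → ℝ) (hT : ∀ l, ‖u (w l) - T l‖ ≤ 1 - a l) :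
    (∑ l, a l) - δ ≤ ‖∑ l, T l‖ := by
  classical
  have htn : t ≤ n := by
    have := Fintype.card_le_of_injective w hw
    simpa using this
  have himg : ∑ i ∈ (univ : Finset (Fin t)).image w, u i = ∑ l, u (w l) :=
    Finset.sum_image (fun a _ b _ h => hw h)
  have hsplit : ∑ i, u i = ∑ l, u (w l) + ∑ i ∈ ((univ : Finset (Fin t)).image w)ᶜ, u i := by
    rw [← himg]
    exact (Finset.sum_add_sum_compl _ _).symm
  have hcard : ((((univ : Finset (Fin t)).image w)ᶜ).card : ℝ) = (n : ℝ) - t := by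
    rw [Finset.card_compl, Finset.card_image_of_injective _ hw]
    simp [Nat.cast_sub htn]
  have h1 : ‖∑ i ∈ ((univ : Finset (Fin t)).image w)ᶜ, u i‖ ≤ (n : ℝ) - t := by
    calc ‖∑ i ∈ ((univ : Finset (Fin t)).image w)ᶜ, u i‖
        ≤ ∑ i ∈ ((univ : Finset (Fin t)).image w)ᶜ, ‖u i‖ := norm_sum_le _ _
      _ ≤ ∑ i ∈ ((univ : Finset (Fin t)).image w)ᶜ, (1 : ℝ) :=
          Finset.sum_le_sum (fun i _ => hu i)
      _ = (n : ℝ) - t := by rw [Finset.sum_const, nsmul_eq_mul, mul_one, hcard]
  have h2 : ‖∑ l, (u (w l) - T l)‖ ≤ (t : ℝ) - ∑ l, a l := by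
    calc ‖∑ l, (u (w l) - T l)‖ ≤ ∑ l, ‖u (w l) - T l‖ := norm_sum_le _ _
      _ ≤ ∑ l, (1 - a l) := Finset.sum_le_sum (fun l _ => hT l)
      _ = (t : ℝ) - ∑ l, a l := by
          rw [Finset.sum_sub_distrib]
          simp
  have h3 : ∑ l, T l = ∑ i, u i
      - (∑ i ∈ ((univ : Finset (Fin t)).image w)ᶜ, u i + ∑ l, (u (w l) - T l)) := by
    rw [hsplit, Finset.sum_sub_distrib]
    abel
  have h4 := norm_sub_norm_le (∑ i, u i)
    (∑ i ∈ ((univ : Finset (Fin t)).image w)ᶜ, u i + ∑ l, (u (w l) - T l))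
  have h5 := norm_add_le (∑ i ∈ ((univ : Finset (Fin t)).image w)ᶜ, u i)
    (∑ l, (u (w l) - T l))
  rw [h3]
  linarith

/-- The bound of `jnorm_lower` for one cut position `1 ≤ k ≤ t` of the sign pattern: the big
cut is taken at the index `w (k-1)`. -/
lemma jnorm_cut {n t : ℕ} (x : Fin n → X) (hx : ∀ i, ‖x i‖ ≤ 1) (δ : ℝ)
    (hcut : ∀ k : Fin n, (n : ℝ) - δ < ‖∑ i, (if i ≤ k then x i else - x i)‖)
    (w : Fin t → Fin n) (hw : StrictMono w) (eps : Fin t → Bool) (k : ℕ) (hk1 : 1 ≤ k)
    (hkt : k ≤ t) :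
    (((∑ l : Fin t, if l.val < k then isgn (eps l) else - isgn (eps l)).natAbs : ℕ) : ℝ) - δ
      ≤ ‖∑ l, sgn (eps l) (x (w l))‖ := by
  have hk' : k - 1 < t := by omega
  set K0 : Fin n := w ⟨k - 1, hk'⟩ with hK0
  set u : Fin n → X := fun i => if i ≤ K0 then x i else - x i with hu_def
  have hu : ∀ i, ‖u i‖ ≤ 1 := by
    intro i
    simp only [hu_def]
    split_ifs
    · exact hx i
    · rw [norm_neg]
      exact hx i
  have hsum : (n : ℝ) - δ < ‖∑ i, u i‖ := hcut K0
  have hlt : ∀ l : Fin t, l.val < k ↔ w l ≤ K0 := by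
    intro l
    rw [hK0, hw.le_iff_le, Fin.le_def]
    simp only
    omega
  have h2 : ∀ v : X, ‖v‖ ≤ 1 → ‖v + v‖ ≤ 2 := fun v hv => by
    have := norm_add_le v v
    linarith
  have hT1 : ∀ l, ‖u (w l) - sgn (eps l) (x (w l))‖
      ≤ 1 - (((if l.val < k then isgn (eps l) else - isgn (eps l) : ℤ)) : ℝ) := by
    intro l
    have hxl := h2 (x (w l)) (hx (w l))
    by_cases hl : l.val < k
    · have hle : w l ≤ K0 := (hlt l).mp hl
      cases h : eps l
      · simp [hu_def, sgn, isgn, hl, hle]
      · simp only [hu_def, sgn, isgn, hl, hle, if_true]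
        norm_num
        linarith
    · have hle : ¬ w l ≤ K0 := fun hh => hl ((hlt l).mpr hh)
      cases h : eps l
      · simp only [hu_def, sgn, isgn, hl, hle, if_false, Bool.false_eq_true]
        norm_num
        have hneg : -x (w l) - x (w l) = -(x (w l) + x (w l)) := by abel
        rw [hneg, norm_neg]
        linarith
      · simp [hu_def, sgn, isgn, hl, hle]
  have hT2 : ∀ l, ‖u (w l) - (- sgn (eps l) (x (w l)))‖
      ≤ 1 - (-(((if l.val < k then isgn (eps l) else - isgn (eps l) : ℤ)) : ℝ)) := by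
    intro l
    have hxl := h2 (x (w l)) (hx (w l))
    by_cases hl : l.val < k
    · have hle : w l ≤ K0 := (hlt l).mp hl
      cases h : eps l
      · simp only [hu_def, sgn, isgn, hl, hle, if_true, if_false, Bool.false_eq_true]
        norm_num
        linarith
      · simp [hu_def, sgn, isgn, hl, hle]
    · have hle : ¬ w l ≤ K0 := fun hh => hl ((hlt l).mpr hh)
      cases h : eps l
      · simp [hu_def, sgn, isgn, hl, hle]
      · simp only [hu_def, sgn, isgn, hl, hle, if_true, if_false]
        norm_num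
        have hneg : -x (w l) - x (w l) = -(x (w l) + x (w l)) := by abel
        rw [hneg, norm_neg]
        linarith
  have b1 := norm_sum_lower_of_close u hu δ hsum w hw.injective
    (fun l => sgn (eps l) (x (w l)))
    (fun l => (((if l.val < k then isgn (eps l) else - isgn (eps l) : ℤ)) : ℝ)) hT1
  have b2 := norm_sum_lower_of_close u hu δ hsum w hw.injective
    (fun l => - sgn (eps l) (x (w l)))
    (fun l => -(((if l.val < k then isgn (eps l) else - isgn (eps l) : ℤ)) : ℝ)) hT2
  rw [Finset.sum_neg_distrib, Finset.sum_neg_distrib, norm_neg] at b2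
  rw [Nat.cast_natAbs, Int.cast_abs, Int.cast_sum]
  have habs : |∑ l : Fin t, (((if l.val < k then isgn (eps l) else - isgn (eps l) : ℤ)) : ℝ)|
      ≤ ‖∑ l, sgn (eps l) (x (w l))‖ + δ := by
    rw [abs_le]
    constructor
    · linarith
    · linarith
  linarith

/-- **Signed sub-sums of a sequence with large one-cut sums.**  If all `x i` have norm at most
`1` and every one-cut sum `∑_{i ≤ k} x i - ∑_{i > k} x i` has norm larger than `n - δ`, then for
every strictly increasing `w : Fin t → Fin n` and every sign pattern `eps` the signed sub-sum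
`∑ l, sgn (eps l) (x (w l))` has norm at least `jval t eps - δ`. -/
lemma jnorm_lower {X : Type*} [NormedAddCommGroup X] {n t : ℕ} (x : Fin n → X)
    (hx : ∀ i, ‖x i‖ ≤ 1) (δ : ℝ) (hδ : 0 ≤ δ)
    (hcut : ∀ k : Fin n, (n : ℝ) - δ < ‖∑ i, (if i ≤ k then x i else - x i)‖)
    (w : Fin t → Fin n) (hw : StrictMono w) (eps : Fin t → Bool) :
    (jval t eps : ℝ) - δ ≤ ‖∑ l, sgn (eps l) (x (w l))‖ := by
  obtain ⟨k, hk, hkeq⟩ := Finset.exists_mem_eq_sup (Finset.range (t + 1)) ⟨0, by simp⟩
    (fun k => (∑ l : Fin t, if l.val < k then isgn (eps l) else - isgn (eps l)).natAbs)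
  have hjv : jval t eps
      = (∑ l : Fin t, if l.val < k then isgn (eps l) else - isgn (eps l)).natAbs := hkeq
  rw [hjv]
  have hkt : k ≤ t := by
    have := Finset.mem_range.mp hk
    omega
  rcases Nat.eq_zero_or_pos k with rfl | hk1
  · rcases Nat.eq_zero_or_pos t with rfl | ht
    · have h0 := norm_nonneg (∑ l : Fin 0, sgn (eps l) (x (w l)))
      simp only [Finset.univ_eq_empty, Finset.sum_empty, Int.natAbs_zero, Nat.cast_zero]
      simp only [Finset.univ_eq_empty, Finset.sum_empty] at h0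
      linarith
    · have hmain := jnorm_cut x hx δ hcut w hw eps t ht le_rfl
      have e0 : (∑ l : Fin t, if l.val < 0 then isgn (eps l) else - isgn (eps l))
          = - ∑ l : Fin t, isgn (eps l) := by
        simp
      have et : (∑ l : Fin t, if l.val < t then isgn (eps l) else - isgn (eps l))
          = ∑ l : Fin t, isgn (eps l) := by
        apply Finset.sum_congr rfl
        intro l _
        rw [if_pos l.isLt]
      rw [e0, Int.natAbs_neg, ← et]
      exact hmain
  · exact jnorm_cut x hx δ hcut w hw eps k hk1 hkt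

end JNorm

end Vale.Agent.Lib.P125
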