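import Vale.Agent.Lib.P125.NonSquare

/-!
# From the cube inequality to J-convexity

A normed space with Markov type `p` and constant `K`, `K ^ p < 2 ^ (p - 1)`, is J-convex: for
some `n ≥ 2` and `δ > 0`, every `n` vectors of the unit ball have a cut `k` with
`‖x_1 + ... + x_k - x_{k+1} - ... - x_n‖ ≤ n - δ`.
-/

namespace Vale.Agent.Lib.P125

open Finset

variable {X : Type*} [NormedAddCommGroup X] [NormedSpace ℝ X]

omit [NormedSpace ℝ X] in
/-- the norm of a sum of `n` vectors of the unit ball is at most the norm of the sum of two of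
them plus `n - 2` -/
lemma sum_le_pair {n : ℕ} (y : Fin n → X) (hy : ∀ i, ‖y i‖ ≤ 1) (i j : Fin n) (hij : i ≠ j) :
    ‖∑ l, y l‖ ≤ ‖y i + y j‖ + ((n : ℝ) - 2) := by
  classical
  have h1 : ∑ l, y l = y i + ∑ l ∈ univ.erase i, y l :=
    (Finset.add_sum_erase univ y (mem_univ i)).symm
  have hj : j ∈ univ.erase i := Finset.mem_erase.2 ⟨hij.symm, mem_univ j⟩
  have h2 : ∑ l ∈ univ.erase i, y l = y j + ∑ l ∈ (univ.erase i).erase j, y l :=
    (Finset.add_sum_erase _ y hj).symm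
  have hn2 : 2 ≤ n := by
    have h3 := i.isLt
    have h4 := j.isLt
    have h5 : i.val ≠ j.val := fun h => hij (Fin.ext h)
    omega
  have hcard : (((univ.erase i).erase j).card : ℝ) = (n : ℝ) - 2 := by
    rw [Finset.card_erase_of_mem hj, Finset.card_erase_of_mem (mem_univ i), Finset.card_univ,
      Fintype.card_fin]
    have h6 : n - 1 - 1 = n - 2 := by omega
    rw [h6, Nat.cast_sub hn2]
    norm_num
  rw [h1, h2, ← add_assoc]
  calc ‖y i + y j + ∑ l ∈ (univ.erase i).erase j, y l‖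
      ≤ ‖y i + y j‖ + ‖∑ l ∈ (univ.erase i).erase j, y l‖ := norm_add_le _ _
    _ ≤ ‖y i + y j‖ + ∑ l ∈ (univ.erase i).erase j, ‖y l‖ := by
        have := norm_sum_le ((univ.erase i).erase j) y
        linarith
    _ ≤ ‖y i + y j‖ + ∑ l ∈ (univ.erase i).erase j, (1 : ℝ) := by
        have := Finset.sum_le_sum (s := (univ.erase i).erase j) (fun l _ => hy l)
        linarith
    _ = ‖y i + y j‖ + ((n : ℝ) - 2) := by
        rw [Finset.sum_const, nsmul_eq_mul, mul_one, hcard]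

/-- If `K ^ p < 2 ^ (p - 1)`, a normed space with Markov type `p` and constant `K` is
J-convex. -/
theorem markov_jconvex (p K : ℝ) (hp : 0 < p) (hM : HasMarkovType X p K)
    (hK : K ^ p < 2 ^ (p - 1)) :
    ∃ n : ℕ, 2 ≤ n ∧ ∃ δ : ℝ, 0 < δ ∧ ∀ x : Fin n → X, (∀ i, ‖x i‖ ≤ 1) →
      ∃ k : Fin n, ‖∑ i, (if i ≤ k then x i else - x i)‖ ≤ (n : ℝ) - δ := by
  have h2p : (2 : ℝ) ^ p = 2 * 2 ^ (p - 1) := by
    rw [Real.rpow_sub_one (by norm_num : (2 : ℝ) ≠ 0) p]
    ring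
  have h2pos : 0 < (2 : ℝ) ^ (p - 1) := Real.rpow_pos_of_pos (by norm_num) _
  set κ : ℝ := max (K ^ p) 0 with hκ
  have hκ0 : 0 ≤ κ := le_max_right _ _
  have hκK : K ^ p ≤ κ := le_max_left _ _
  have hκlt : 2 * κ < 2 ^ p := by
    have h1 : κ < 2 ^ (p - 1) := max_lt hK h2pos
    rw [h2p]
    linarith
  set c : ℝ := (2 * κ + 2 ^ p) / 2 with hc
  have hc1 : 2 * κ < c := by rw [hc]; linarith
  have hc2 : c < 2 ^ p := by rw [hc]; linarith
  have hc0 : 0 < c := by linarith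
  set r : ℝ := c ^ (1 / p) with hr
  have hr0 : 0 < r := Real.rpow_pos_of_pos hc0 _
  have hrp : r ^ p = c := by
    rw [hr, ← Real.rpow_mul (le_of_lt hc0), one_div, inv_mul_cancel₀ (ne_of_gt hp),
      Real.rpow_one]
  have hr2 : r < 2 := by
    by_contra hge
    have hge' : (2 : ℝ) ≤ r := not_lt.1 hge
    have : (2 : ℝ) ^ p ≤ r ^ p := Real.rpow_le_rpow (by norm_num) hge' (le_of_lt hp)
    rw [hrp] at this
    linarith
  obtain ⟨m, hm⟩ := exists_nat_gt (c / (c - 2 * κ))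
  have hm' : c < (m : ℝ) * (c - 2 * κ) := by
    rwa [div_lt_iff₀ (by linarith)] at hm
  refine ⟨m + 2, by omega, 2 - r, by linarith, ?_⟩
  intro x hx
  by_contra hcon
  have hcon' : ∀ k : Fin (m + 2),
      (((m + 2 : ℕ) : ℝ)) - (2 - r) < ‖∑ i, (if i ≤ k then x i else - x i)‖ := by
    intro k
    by_contra hk
    exact hcon ⟨k, not_lt.1 hk⟩
  have hcast : (((m + 2 : ℕ) : ℝ)) = (m : ℝ) + 2 := by push_cast; ring
  -- pairs
  have hlt : ∀ i j : Fin (m + 2), i < j → r < ‖x i + x j‖ ∧ r < ‖x i - x j‖ := by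
    intro i j hij
    constructor
    · have hk := hcon' (Fin.last (m + 1))
      have hall : ∀ l : Fin (m + 2), l ≤ Fin.last (m + 1) := fun l => Fin.le_last l
      simp only [hall, if_true] at hk
      have h3 := sum_le_pair x hx i j (ne_of_lt hij)
      rw [hcast] at hk h3
      linarith
    · have hk := hcon' i
      have hyn : ∀ l : Fin (m + 2), ‖(if l ≤ i then x l else - x l)‖ ≤ 1 := by
        intro l
        split_ifs
        · exact hx l
        · rw [norm_neg]; exact hx l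
      have h3 := sum_le_pair (fun l : Fin (m + 2) => if l ≤ i then x l else - x l) hyn i j
        (ne_of_lt hij)
      simp only [le_refl, if_true, not_le.2 hij, if_false] at h3
      rw [← sub_eq_add_neg] at h3
      rw [hcast] at hk h3
      linarith
  have hne : ∀ i j : Fin (m + 2), i ≠ j → c ≤ ‖x i + x j‖ ^ p ∧ c ≤ ‖x i - x j‖ ^ p := by
    intro i j hij
    rcases lt_or_gt_of_ne hij with h | h
    · obtain ⟨h1, h2⟩ := hlt i j h
      constructor
      · rw [← hrp]; exact Real.rpow_le_rpow (le_of_lt hr0) (le_of_lt h1) (le_of_lt hp)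
      · rw [← hrp]; exact Real.rpow_le_rpow (le_of_lt hr0) (le_of_lt h2) (le_of_lt hp)
    · obtain ⟨h1, h2⟩ := hlt j i h
      rw [add_comm] at h1
      rw [norm_sub_rev] at h2
      constructor
      · rw [← hrp]; exact Real.rpow_le_rpow (le_of_lt hr0) (le_of_lt h1) (le_of_lt hp)
      · rw [← hrp]; exact Real.rpow_le_rpow (le_of_lt hr0) (le_of_lt h2) (le_of_lt hp)
  have key := pair_ineq (ι := Fin (m + 2)) p K hp hM x
  have hL : ∑ i : Fin (m + 2), ∑ j : Fin (m + 2), (if i = j then (0 : ℝ) else 2 * c)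
      ≤ ∑ i : Fin (m + 2), ∑ j : Fin (m + 2),
        (if i = j then 0 else (‖x i + x j‖ ^ p + ‖x i - x j‖ ^ p)) := by
    apply Finset.sum_le_sum
    intro i _
    apply Finset.sum_le_sum
    intro j _
    split_ifs with h
    · exact le_refl _
    · obtain ⟨h1, h2⟩ := hne i j h
      linarith
  have hLval : ∑ i : Fin (m + 2), ∑ j : Fin (m + 2), (if i = j then (0 : ℝ) else 2 * c)
      = ((m : ℝ) + 2) * (((m : ℝ) + 2) * (2 * c) - 2 * c) := by
    simp only [sum_ite_ne, Finset.sum_const, Finset.card_univ, Fintype.card_fin, nsmul_eq_mul]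
    push_cast
    ring
  have hsum : ∑ i : Fin (m + 2), ‖x i‖ ^ p ≤ (m : ℝ) + 2 := by
    calc ∑ i : Fin (m + 2), ‖x i‖ ^ p ≤ ∑ i : Fin (m + 2), (1 : ℝ) :=
          Finset.sum_le_sum (fun i _ => Real.rpow_le_one (norm_nonneg _) (hx i) (le_of_lt hp))
      _ = (m : ℝ) + 2 := by
          simp only [Finset.sum_const, Finset.card_univ, Fintype.card_fin, nsmul_eq_mul, mul_one]
          push_cast
          ring
  have hsum0 : 0 ≤ ∑ i : Fin (m + 2), ‖x i‖ ^ p :=
    Finset.sum_nonneg (fun i _ => Real.rpow_nonneg (norm_nonneg _) p)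
  have hN : (0 : ℝ) < (m : ℝ) + 2 := by positivity
  have hR : 4 * K ^ p * (Fintype.card (Fin (m + 2)) : ℝ) * ∑ i : Fin (m + 2), ‖x i‖ ^ p
      ≤ ((m : ℝ) + 2) * (4 * κ * ((m : ℝ) + 2)) := by
    rw [Fintype.card_fin, hcast]
    have h1 : 4 * K ^ p * ((m : ℝ) + 2) * ∑ i : Fin (m + 2), ‖x i‖ ^ p
        ≤ 4 * κ * ((m : ℝ) + 2) * ∑ i : Fin (m + 2), ‖x i‖ ^ p := by
      apply mul_le_mul_of_nonneg_right _ hsum0
      apply mul_le_mul_of_nonneg_right _ (le_of_lt hN)
      linarith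
    have h2 : 4 * κ * ((m : ℝ) + 2) * ∑ i : Fin (m + 2), ‖x i‖ ^ p
        ≤ 4 * κ * ((m : ℝ) + 2) * ((m : ℝ) + 2) := by
      apply mul_le_mul_of_nonneg_left hsum
      positivity
    linarith
  have h5 : ((m : ℝ) + 2) * (((m : ℝ) + 2) * (2 * c) - 2 * c)
      ≤ ((m : ℝ) + 2) * (4 * κ * ((m : ℝ) + 2)) := by
    rw [← hLval]
    linarith
  have h6 : ((m : ℝ) + 2) * (2 * c) - 2 * c ≤ 4 * κ * ((m : ℝ) + 2) :=
    le_of_mul_le_mul_left h5 hN
  nlinarith [h6, hm', hc1]

end Vale.Agent.Lib.P125
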