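import Vale.Agent.Lib.P125.Cube

/-!
# The `t`-step walk on the cube: definitions

`jval t ε` is the largest absolute value of a one-cut signed sum of the sign pattern `ε`, and
`flips t w a` applies the coordinate flips `w 0, ..., w (t-1)` to `a`.
-/

namespace Vale.Agent.Lib.P125

open Finset

/-- integer sign of a bit: `false ↦ 1`, `true ↦ -1` (so `sgn b v` is `isgn b` times `v`) -/
def isgn (b : Bool) : ℤ := if b then -1 else 1

/-- `jval t ε = max_{0 ≤ k ≤ t} |∑_{l < k} ε_l - ∑_{l ≥ k} ε_l|`, where the bit `ε_l` stands for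
the sign `isgn (ε l)` -/
def jval (t : ℕ) (ε : Fin t → Bool) : ℕ :=
  (Finset.range (t + 1)).sup fun k =>
    (∑ l : Fin t, if l.val < k then isgn (ε l) else - isgn (ε l)).natAbs

/-- apply the flips `w 0, w 1, ..., w (t-1)`, in this order -/
def flips {ι : Type} [DecidableEq ι] : (t : ℕ) → (Fin t → ι) → (ι → Bool) → (ι → Bool)
  | 0, _, a => a
  | (t + 1), w, a => flips t (Fin.tail w) (flip (w 0) a)

end Vale.Agent.Lib.P125
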