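import Vale.Agent.Lib.P125.MultiDefs

/-!
# Evaluation of the sums of `jval` for `t = 3` and `t = 8`
-/

namespace Vale.Agent.Lib.P125

open Finset

/-- the sum over sign patterns of length `t + 1`, split along the first sign -/
lemma sum_bool_succ (t : ℕ) (F : (Fin (t + 1) → Bool) → ℕ) :
    ∑ ε : Fin (t + 1) → Bool, F ε
      = ∑ ε : Fin t → Bool, F (Fin.cons false ε) + ∑ ε : Fin t → Bool, F (Fin.cons true ε) := by
  rw [← (Fin.consEquiv (fun _ : Fin (t + 1) => Bool)).sum_comp, Fintype.sum_prod_type,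
    Fintype.sum_bool, add_comm]
  rfl

/-- `t = 3`: six patterns have `jval = 3`, two have `jval = 1` -/
lemma sum_jval_three (g : ℕ → ℝ) :
    ∑ ε : Fin 3 → Bool, g (jval 3 ε) = 6 * g 3 + 2 * g 1 := by
  rw [Finset.sum_comp g (jval 3)]
  have h1 : (Finset.univ : Finset (Fin 3 → Bool)).image (jval 3) = {1, 3} := by decide
  have h2 : (Finset.univ.filter (fun ε : Fin 3 → Bool => jval 3 ε = 1)).card = 2 := by decide
  have h3 : (Finset.univ.filter (fun ε : Fin 3 → Bool => jval 3 ε = 3)).card = 6 := by decide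
  rw [h1, Finset.sum_pair (by norm_num), h2, h3]
  simp only [nsmul_eq_mul]
  push_cast
  ring

/-- `t = 8`: the sum of the squares of `jval` over the `256` patterns -/
lemma sum_jval_sq_eight : ∑ ε : Fin 8 → Bool, (jval 8 ε) ^ 2 = 6080 := by
  rw [sum_bool_succ 7, sum_bool_succ 6, sum_bool_succ 6]
  have h1 : ∑ ε : Fin 6 → Bool,
      (jval 8 (Fin.cons false (Fin.cons false ε) : Fin 8 → Bool)) ^ 2 = 1812 := by decide
  have h2 : ∑ ε : Fin 6 → Bool,
      (jval 8 (Fin.cons false (Fin.cons true ε) : Fin 8 → Bool)) ^ 2 = 1228 := by decide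
  have h3 : ∑ ε : Fin 6 → Bool,
      (jval 8 (Fin.cons true (Fin.cons false ε) : Fin 8 → Bool)) ^ 2 = 1228 := by decide
  have h4 : ∑ ε : Fin 6 → Bool,
      (jval 8 (Fin.cons true (Fin.cons true ε) : Fin 8 → Bool)) ^ 2 = 1812 := by decide
  rw [h1, h2, h3, h4]

/-- real form of `sum_jval_sq_eight` -/
lemma sum_jval_rpow_eight : ∑ ε : Fin 8 → Bool, (jval 8 ε : ℝ) ^ (2 : ℝ) = 6080 := by
  have h : ∀ ε : Fin 8 → Bool, (jval 8 ε : ℝ) ^ (2 : ℝ) = (((jval 8 ε) ^ 2 : ℕ) : ℝ) := by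
    intro ε
    rw [Real.rpow_two]
    push_cast
    ring
  simp only [h]
  rw [← Nat.cast_sum, sum_jval_sq_eight]
  norm_num

end Vale.Agent.Lib.P125
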