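import Vale.Agent.Lib.P125.MultiWalk
import Vale.Agent.Lib.P125.H1Marginal
import Vale.Agent.Lib.P125.H29JNormSum

/-!
# The `t`-step inequality on the cube
-/

namespace Vale.Agent.Lib.P125

open Finset

section

variable {X : Type*} [NormedAddCommGroup X]
variable {ι : Type} [Fintype ι] [DecidableEq ι]

/-- Markov type applied to the walk on the cube, `t` steps. -/
lemma cube_markov [Nonempty ι] (p K : ℝ) (hM : HasMarkovType X p K) (x : ι → X)
    (t : ℕ) (ht : 1 ≤ t) :
    ∑ a : ι → Bool, ∑ c, 1 / (Fintype.card (ι → Bool) : ℝ) * (cubeP ^ t) a c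
        * ‖cubeF x a - cubeF x c‖ ^ p
      ≤ K ^ p * (t : ℝ) * ((1 / (Fintype.card ι : ℝ)) * ∑ i, ‖x i‖ ^ p) := by
  classical
  set N : ℝ := (Fintype.card ι : ℝ) with hN
  have hNpos : 0 < N := by
    rw [hN]; exact_mod_cast Fintype.card_pos
  set M : ℝ := (Fintype.card (ι → Bool) : ℝ) with hMc
  have hMpos : 0 < M := by
    rw [hMc]; exact_mod_cast Fintype.card_pos
  have hP0 : ∀ a b : ι → Bool, 0 ≤ cubeP a b := by
    intro a b
    unfold cubeP
    apply Finset.sum_nonneg
    intro i _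
    split_ifs
    · positivity
    · exact le_refl _
  have hrow : ∀ a : ι → Bool, ∑ b, cubeP a b = 1 := by
    intro a
    have := cubeP_sum a (fun _ => (1 : ℝ))
    simp only [mul_one, Finset.sum_const, Finset.card_univ, nsmul_eq_mul] at this
    rw [this, ← hN]
    field_simp
  have hπ0 : ∀ a : ι → Bool, 0 ≤ (fun _ : ι → Bool => 1 / M) a := fun a => by positivity
  have hπ1 : ∑ a : ι → Bool, (fun _ : ι → Bool => 1 / M) a = 1 := by
    simp only [Finset.sum_const, Finset.card_univ, nsmul_eq_mul]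
    rw [← hMc]
    field_simp
  have hrev : ∀ a b : ι → Bool, (fun _ : ι → Bool => 1 / M) a * cubeP a b
      = (fun _ : ι → Bool => 1 / M) b * cubeP b a := by
    intro a b
    simp only
    rw [cubeP_symm a b]
  have key := hM (ι → Bool) cubeP (fun _ => 1 / M) hP0 hrow hπ0 hπ1 hrev (cubeF x) t ht
  have hone : ∀ a : ι → Bool, ∑ b, cubeP a b * ‖cubeF x a - cubeF x b‖ ^ p
      = (1 / N) * ∑ i, ‖x i‖ ^ p := by
    intro a
    rw [cubeP_sum a (fun b => ‖cubeF x a - cubeF x b‖ ^ p)]
    congr 1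
    apply Finset.sum_congr rfl
    intro i _
    rw [cubeF_flip]
    congr 1
    rw [sub_add_cancel_left]
    unfold sgn
    cases a i <;> simp
  have hE1 : ∑ a : ι → Bool, ∑ b, 1 / M * cubeP a b * ‖cubeF x a - cubeF x b‖ ^ p
      = (1 / N) * ∑ i, ‖x i‖ ^ p := by
    have : ∀ a : ι → Bool, ∑ b, 1 / M * cubeP a b * ‖cubeF x a - cubeF x b‖ ^ p
        = 1 / M * ((1 / N) * ∑ i, ‖x i‖ ^ p) := by
      intro a
      rw [← hone a, Finset.mul_sum]
      apply Finset.sum_congr rfl
      intro b _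
      ring
    simp only [this, Finset.sum_const, Finset.card_univ, nsmul_eq_mul]
    rw [← hMc]
    field_simp
  rw [hE1] at key
  exact key

/-- The `t`-step inequality on the cube, for a finite family of vectors: the sum over all
injective `t`-tuples of indices and all sign patterns. -/
lemma multi_ineq [Nonempty ι] (p K : ℝ) (hM : HasMarkovType X p K) (x : ι → X)
    (t : ℕ) (ht : 1 ≤ t) :
    ∑ w : Fin t → ι, (if Function.Injective w then
        ∑ ε : Fin t → Bool, ‖∑ l, sgn (ε l) (x (w l))‖ ^ p else 0)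
      ≤ 2 ^ t * (Fintype.card ι : ℝ) ^ t
          * (K ^ p * (t : ℝ) * ((1 / (Fintype.card ι : ℝ)) * ∑ i, ‖x i‖ ^ p)) := by
  classical
  set N : ℝ := (Fintype.card ι : ℝ) with hN
  have hNpos : 0 < N := by
    rw [hN]; exact_mod_cast Fintype.card_pos
  set M : ℝ := (Fintype.card (ι → Bool) : ℝ) with hMc
  have hMpos : 0 < M := by
    rw [hMc]; exact_mod_cast Fintype.card_pos
  have key := cube_markov p K hM x t ht
  rw [← hN, ← hMc] at key
  -- lower bound of the left side
  have hlow : ∀ a : ι → Bool,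
      1 / M * ((1 / N) ^ t * ∑ w : Fin t → ι, (if Function.Injective w then
          ‖∑ l, sgn (a (w l)) (x (w l))‖ ^ p else 0))
        ≤ ∑ c, 1 / M * (cubeP ^ t) a c * ‖cubeF x a - cubeF x c‖ ^ p := by
    intro a
    have h1 : ∑ c, 1 / M * (cubeP ^ t) a c * ‖cubeF x a - cubeF x c‖ ^ p
        = 1 / M * ((1 / N) ^ t * ∑ w : Fin t → ι, ‖cubeF x a - cubeF x (flips t w a)‖ ^ p) := by
      rw [← cubeP_pow_sum t a (fun c => ‖cubeF x a - cubeF x c‖ ^ p), Finset.mul_sum]
      apply Finset.sum_congr rfl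
      intro c _
      ring
    rw [h1]
    apply mul_le_mul_of_nonneg_left _ (by positivity)
    apply mul_le_mul_of_nonneg_left _ (by positivity)
    apply Finset.sum_le_sum
    intro w _
    split_ifs with hw
    · have h2 := cubeF_flips x t w hw a
      rw [← h2, ← norm_neg, neg_sub]
    · exact Real.rpow_nonneg (norm_nonneg _) p
  have hsum : ∑ a : ι → Bool, 1 / M * ((1 / N) ^ t * ∑ w : Fin t → ι,
        (if Function.Injective w then ‖∑ l, sgn (a (w l)) (x (w l))‖ ^ p else 0))
      = (1 / N) ^ t * (1 / 2 ^ t * ∑ w : Fin t → ι, (if Function.Injective w then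
        ∑ ε : Fin t → Bool, ‖∑ l, sgn (ε l) (x (w l))‖ ^ p else 0)) := by
    rw [← Finset.mul_sum, ← Finset.mul_sum, Finset.sum_comm]
    have h3 : ∀ w : Fin t → ι, ∑ a : ι → Bool,
        (if Function.Injective w then ‖∑ l, sgn (a (w l)) (x (w l))‖ ^ p else 0)
        = M / 2 ^ t * (if Function.Injective w then
            ∑ ε : Fin t → Bool, ‖∑ l, sgn (ε l) (x (w l))‖ ^ p else 0) := by
      intro w
      split_ifs with hw
      · have := cube_marginal t w hw (fun ε => ‖∑ l, sgn (ε l) (x (w l))‖ ^ p)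
        rw [← hMc] at this
        exact this
      · simp
    simp only [h3]
    rw [← Finset.mul_sum]
    field_simp
  have hchain : (1 / N) ^ t * (1 / 2 ^ t * ∑ w : Fin t → ι, (if Function.Injective w then
        ∑ ε : Fin t → Bool, ‖∑ l, sgn (ε l) (x (w l))‖ ^ p else 0))
      ≤ K ^ p * (t : ℝ) * ((1 / N) * ∑ i, ‖x i‖ ^ p) := by
    rw [← hsum]
    exact le_trans (Finset.sum_le_sum (fun a _ => hlow a)) key
  have hpos : (0 : ℝ) < 2 ^ t * N ^ t := by positivity
  have h4 := mul_le_mul_of_nonneg_left hchain (le_of_lt hpos)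
  refine le_trans (le_of_eq ?_) h4
  rw [one_div_pow]
  field_simp

end

end Vale.Agent.Lib.P125
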