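import Vale.Agent.Lib.P125.MultiIneq

/-!
# From the `t`-step cube inequality to J-convexity
-/

namespace Vale.Agent.Lib.P125

open Finset

variable {X : Type*} [NormedAddCommGroup X]

/-- the all-plus pattern has `jval = t` at least -/
lemma le_jval_false (t : ℕ) : t ≤ jval t (fun _ => false) := by
  unfold jval
  have h := Finset.le_sup (f := fun k =>
      (∑ l : Fin t, if l.val < k then isgn ((fun _ => false) l)
        else - isgn ((fun _ => false) l)).natAbs)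
    (Finset.mem_range.2 (Nat.lt_succ_self t))
  refine le_trans (le_of_eq ?_) h
  have : ∀ l : Fin t, (if l.val < t then isgn false else - isgn false) = 1 := by
    intro l
    simp [isgn, l.isLt]
  simp only [this]
  simp

/-- number of injective `t`-tuples in `Fin n` -/
lemma sum_injective_const (n t : ℕ) (c : ℝ) :
    ∑ w : Fin t → Fin n, (if Function.Injective w then c else 0)
      = (n.descFactorial t : ℝ) * c := by
  classical
  rw [← Finset.sum_filter, Finset.sum_const, nsmul_eq_mul]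
  congr 2
  rw [← Fintype.card_subtype,
    Fintype.card_congr (Equiv.subtypeInjectiveEquivEmbedding (Fin t) (Fin n)),
    Fintype.card_embedding_eq, Fintype.card_fin, Fintype.card_fin]

/-- the number of injective `t`-tuples is close to `n ^ t` -/
lemma desc_arith (m t : ℕ) (ρ : ℝ) (hρ0 : 0 ≤ ρ) (hρ1 : ρ < 1)
    (hm : 2 * (t : ℝ) ^ 2 < (m : ℝ) * (1 - ρ)) :
    (((m + t + 1 : ℕ) : ℝ)) ^ t * ρ < ((m + t + 1).descFactorial t : ℝ) * ((ρ + 1) / 2) := by
  set n' : ℝ := (((m + t + 1 : ℕ) : ℝ)) with hn'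
  have hn'val : n' = (m : ℝ) + (t : ℝ) + 1 := by rw [hn']; push_cast; ring
  have hm0 : (0 : ℝ) ≤ (m : ℝ) := Nat.cast_nonneg m
  have ht0 : (0 : ℝ) ≤ (t : ℝ) := Nat.cast_nonneg t
  have hn'pos : 0 < n' := by rw [hn'val]; positivity
  have h1ρ : 0 < 1 - ρ := by linarith
  have hdesc : (((m : ℝ) + 2) ^ t) ≤ ((m + t + 1).descFactorial t : ℝ) := by
    have h := Nat.pow_sub_le_descFactorial (m + t + 1) t
    have h1 : m + t + 1 + 1 - t = m + 2 := by omega
    rw [h1] at h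
    exact_mod_cast h
  set a : ℝ := ((m : ℝ) + 2) / n' with ha
  have ha0 : 0 ≤ a := by rw [ha]; positivity
  have hB := one_add_mul_sub_le_pow (a := a) (by linarith) t
  have hapow : a ^ t * n' ^ t = ((m : ℝ) + 2) ^ t := by
    rw [← mul_pow, ha, div_mul_cancel₀ _ (ne_of_gt hn'pos)]
  set y : ℝ := (t : ℝ) * ((t : ℝ) - 1) / n' with hy
  have ha1 : (t : ℝ) * (a - 1) = - y := by
    rw [ha, hy, hn'val]
    field_simp
    ring
  have hylt : y < (1 - ρ) / 2 := by
    rw [hy, div_lt_iff₀ hn'pos]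
    have h1 : (t : ℝ) * ((t : ℝ) - 1) ≤ (t : ℝ) ^ 2 := by nlinarith
    have h3 : (m : ℝ) * (1 - ρ) ≤ n' * (1 - ρ) := by
      apply mul_le_mul_of_nonneg_right _ (le_of_lt h1ρ)
      rw [hn'val]; linarith
    linarith
  have hfac : ρ < (1 + (t : ℝ) * (a - 1)) * ((ρ + 1) / 2) := by
    rw [ha1]
    rcases le_total 0 y with hy0 | hy0
    · have h2 : y * ((ρ + 1) / 2) ≤ y * 1 :=
        mul_le_mul_of_nonneg_left (by linarith) hy0
      nlinarith
    · have h2 : 0 ≤ (-y) * ((ρ + 1) / 2) := mul_nonneg (by linarith) (by linarith)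
      nlinarith
  have hn't : 0 < n' ^ t := by positivity
  have hρ1pos : 0 < (ρ + 1) / 2 := by linarith
  have h1 : (1 + (t : ℝ) * (a - 1)) * n' ^ t ≤ ((m + t + 1).descFactorial t : ℝ) := by
    calc (1 + (t : ℝ) * (a - 1)) * n' ^ t ≤ a ^ t * n' ^ t :=
          mul_le_mul_of_nonneg_right hB (le_of_lt hn't)
      _ = ((m : ℝ) + 2) ^ t := hapow
      _ ≤ _ := hdesc
  calc n' ^ t * ρ < n' ^ t * ((1 + (t : ℝ) * (a - 1)) * ((ρ + 1) / 2)) :=
        mul_lt_mul_of_pos_left hfac hn't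
    _ = (1 + (t : ℝ) * (a - 1)) * n' ^ t * ((ρ + 1) / 2) := by ring
    _ ≤ ((m + t + 1).descFactorial t : ℝ) * ((ρ + 1) / 2) :=
        mul_le_mul_of_nonneg_right h1 (le_of_lt hρ1pos)

/-- If `2^t * t * K^p < ∑_ε (jval t ε)^p` for some `t ≥ 1`, a normed space with Markov type `p`
and constant `K` is J-convex. -/
theorem markov_multi_jconvex (p K : ℝ) (hp : 0 < p) (hM : HasMarkovType X p K)
    (t : ℕ) (ht : 1 ≤ t)
    (hK : (2 : ℝ) ^ t * (t : ℝ) * K ^ p < ∑ ε : Fin t → Bool, (jval t ε : ℝ) ^ p) :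
    ∃ n : ℕ, 2 ≤ n ∧ ∃ δ : ℝ, 0 < δ ∧ ∀ x : Fin n → X, (∀ i, ‖x i‖ ≤ 1) →
      ∃ k : Fin n, ‖∑ i, (if i ≤ k then x i else - x i)‖ ≤ (n : ℝ) - δ := by
  classical
  set S : ℝ := ∑ ε : Fin t → Bool, (jval t ε : ℝ) ^ p with hS
  have htpos : (0 : ℝ) < (t : ℝ) := by exact_mod_cast ht
  -- S is positive
  have hS0 : 0 < S := by
    have h1 : (jval t (fun _ => false) : ℝ) ^ p ≤ S := by
      rw [hS]
      exact Finset.single_le_sum (f := fun ε : Fin t → Bool => (jval t ε : ℝ) ^ p)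
        (fun ε _ => Real.rpow_nonneg (Nat.cast_nonneg _) p) (Finset.mem_univ _)
    have h2 : (1 : ℝ) ≤ (jval t (fun _ => false) : ℝ) := by
      have := le_jval_false t
      have h3 : (1 : ℕ) ≤ jval t (fun _ => false) := le_trans ht this
      exact_mod_cast h3
    have h4 : (1 : ℝ) ≤ (jval t (fun _ => false) : ℝ) ^ p :=
      Real.one_le_rpow h2 (le_of_lt hp)
    linarith
  set κ : ℝ := max (K ^ p) 0 with hκ
  have hκ0 : 0 ≤ κ := le_max_right _ _
  have hκK : K ^ p ≤ κ := le_max_left _ _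
  have h2t : (0 : ℝ) < 2 ^ t * (t : ℝ) := by positivity
  have hκlt : 2 ^ t * (t : ℝ) * κ < S := by
    rcases le_total (K ^ p) 0 with h | h
    · rw [hκ, max_eq_right h]; simpa using hS0
    · rw [hκ, max_eq_left h]; exact hK
  set ρ : ℝ := 2 ^ t * (t : ℝ) * κ / S with hρ
  have hρ0 : 0 ≤ ρ := by rw [hρ]; positivity
  have hρ1 : ρ < 1 := by rw [hρ, div_lt_one hS0]; exact hκlt
  have hρS : ρ * S = 2 ^ t * (t : ℝ) * κ := by rw [hρ]; field_simp
  set ρ1 : ℝ := (ρ + 1) / 2 with hρ1def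
  have hρ1pos : 0 < ρ1 := by rw [hρ1def]; linarith
  have hρ1lt : ρ1 < 1 := by rw [hρ1def]; linarith
  set r : ℝ := ρ1 ^ (1 / p) with hr
  have hr0 : 0 < r := Real.rpow_pos_of_pos hρ1pos _
  have hrp : r ^ p = ρ1 := by
    rw [hr, ← Real.rpow_mul (le_of_lt hρ1pos), one_div, inv_mul_cancel₀ (ne_of_gt hp),
      Real.rpow_one]
  have hr1 : r < 1 := by
    by_contra hge
    have hge' : (1 : ℝ) ≤ r := not_lt.1 hge
    have : (1 : ℝ) ≤ r ^ p := Real.one_le_rpow hge' (le_of_lt hp)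
    rw [hrp] at this
    linarith
  obtain ⟨m, hm⟩ := exists_nat_gt (2 * (t : ℝ) ^ 2 / (1 - ρ))
  have h1ρ : 0 < 1 - ρ := by linarith
  have hm' : 2 * (t : ℝ) ^ 2 < (m : ℝ) * (1 - ρ) := by
    rwa [div_lt_iff₀ h1ρ] at hm
  have hm0 : (0 : ℝ) ≤ (m : ℝ) := Nat.cast_nonneg m
  refine ⟨m + t + 1, by omega, 1 - r, by linarith, ?_⟩
  intro x hx
  by_contra hcon
  have hcut : ∀ k : Fin (m + t + 1),
      (((m + t + 1 : ℕ) : ℝ)) - (1 - r) < ‖∑ i, (if i ≤ k then x i else - x i)‖ := by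
    intro k
    by_contra hk
    exact hcon ⟨k, not_lt.1 hk⟩
  set n' : ℝ := (((m + t + 1 : ℕ) : ℝ)) with hn'
  have hn'val : n' = (m : ℝ) + (t : ℝ) + 1 := by rw [hn']; push_cast; ring
  have hn'pos : 0 < n' := by rw [hn'val]; positivity
  have key := multi_ineq (ι := Fin (m + t + 1)) p K hM x t ht
  rw [Fintype.card_fin, ← hn'] at key
  -- lower bound
  have hlow : ∑ w : Fin t → Fin (m + t + 1), (if Function.Injective w then ρ1 * S else 0)
      ≤ ∑ w : Fin t → Fin (m + t + 1), (if Function.Injective w then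
        ∑ ε : Fin t → Bool, ‖∑ l, sgn (ε l) (x (w l))‖ ^ p else 0) := by
    apply Finset.sum_le_sum
    intro w _
    split_ifs with hw
    · have h := jnorm_sum_lower p hp x hx (1 - r) (by linarith) (by linarith) hcut w hw
      have h1 : (1 - (1 - r)) ^ p = ρ1 := by
        rw [sub_sub_cancel, hrp]
      rw [h1] at h
      exact h
    · exact le_refl _
  rw [sum_injective_const] at hlow
  -- upper bound
  have hA0 : 0 ≤ 1 / n' * ∑ i : Fin (m + t + 1), ‖x i‖ ^ p := by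
    apply mul_nonneg (by positivity)
    exact Finset.sum_nonneg (fun i _ => Real.rpow_nonneg (norm_nonneg _) p)
  have hA1 : 1 / n' * ∑ i : Fin (m + t + 1), ‖x i‖ ^ p ≤ 1 := by
    have h1 : ∑ i : Fin (m + t + 1), ‖x i‖ ^ p ≤ n' := by
      calc ∑ i : Fin (m + t + 1), ‖x i‖ ^ p ≤ ∑ i : Fin (m + t + 1), (1 : ℝ) :=
            Finset.sum_le_sum (fun i _ =>
              Real.rpow_le_one (norm_nonneg _) (hx i) (le_of_lt hp))
        _ = n' := by
            simp only [Finset.sum_const, Finset.card_univ, Fintype.card_fin, nsmul_eq_mul,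
              mul_one]
            rw [hn']
    rw [one_div, inv_mul_le_iff₀ hn'pos]
    linarith
  have hup : K ^ p * (t : ℝ) * (1 / n' * ∑ i : Fin (m + t + 1), ‖x i‖ ^ p) ≤ κ * (t : ℝ) := by
    have h1 : K ^ p * (t : ℝ) * (1 / n' * ∑ i : Fin (m + t + 1), ‖x i‖ ^ p)
        ≤ κ * (t : ℝ) * (1 / n' * ∑ i : Fin (m + t + 1), ‖x i‖ ^ p) := by
      apply mul_le_mul_of_nonneg_right _ hA0
      exact mul_le_mul_of_nonneg_right hκK (le_of_lt htpos)
    have h2 : κ * (t : ℝ) * (1 / n' * ∑ i : Fin (m + t + 1), ‖x i‖ ^ p) ≤ κ * (t : ℝ) * 1 :=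
      mul_le_mul_of_nonneg_left hA1 (by positivity)
    linarith
  have hD : ((m + t + 1).descFactorial t : ℝ) * (ρ1 * S) ≤ n' ^ t * (ρ * S) := by
    have h1 : (2 : ℝ) ^ t * n' ^ t
        * (K ^ p * (t : ℝ) * (1 / n' * ∑ i : Fin (m + t + 1), ‖x i‖ ^ p))
        ≤ 2 ^ t * n' ^ t * (κ * (t : ℝ)) :=
      mul_le_mul_of_nonneg_left hup (by positivity)
    have h2 : (2 : ℝ) ^ t * n' ^ t * (κ * (t : ℝ)) = n' ^ t * (ρ * S) := by
      rw [hρS]; ring
    linarith
  have hfin0 := desc_arith m t ρ hρ0 hρ1 hm'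
  rw [← hn', ← hρ1def] at hfin0
  have hfin : n' ^ t * (ρ * S) < ((m + t + 1).descFactorial t : ℝ) * (ρ1 * S) := by
    have h3 := mul_lt_mul_of_pos_right hfin0 hS0
    linarith
  linarith

end Vale.Agent.Lib.P125
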