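import Vale.Agent.Lib.P125.MultiDefs

/-!
# The `t`-step walk on the cube
-/

namespace Vale.Agent.Lib.P125

open Finset

section

variable {X : Type*} [NormedAddCommGroup X]
variable {ι : Type} [Fintype ι] [DecidableEq ι]

/-- `t` steps of the walk: average over all sequences of `t` flips -/
lemma cubeP_pow_sum (t : ℕ) (a : ι → Bool) (G : (ι → Bool) → ℝ) :
    ∑ c, (cubeP ^ t) a c * G c
      = (1 / (Fintype.card ι : ℝ)) ^ t * ∑ w : Fin t → ι, G (flips t w a) := by
  induction t generalizing a with
  | zero =>
    simp [flips, Matrix.one_apply]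
  | succ t ih =>
    have hpow : ∀ c, (cubeP ^ (t + 1)) a c = ∑ b, cubeP a b * (cubeP ^ t) b c := by
      intro c
      rw [pow_succ', Matrix.mul_apply]
    simp only [hpow, Finset.sum_mul]
    rw [Finset.sum_comm]
    have h1 : ∀ b : ι → Bool, ∑ c, cubeP a b * (cubeP ^ t) b c * G c
        = cubeP a b * ((1 / (Fintype.card ι : ℝ)) ^ t * ∑ w : Fin t → ι, G (flips t w b)) := by
      intro b
      rw [← ih b, Finset.mul_sum]
      apply Finset.sum_congr rfl
      intro c _
      ring
    simp only [h1]
    rw [cubeP_sum a (fun b => (1 / (Fintype.card ι : ℝ)) ^ t * ∑ w : Fin t → ι, G (flips t w b))]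
    rw [← (Fin.consEquiv (fun _ : Fin (t + 1) => ι)).sum_comp, Fintype.sum_prod_type]
    have hc : ∀ (i : ι) (w' : Fin t → ι),
        flips (t + 1) ((Fin.consEquiv (fun _ : Fin (t + 1) => ι)) (i, w')) a
          = flips t w' (flip i a) := by
      intro i w'
      have e1 : (Fin.consEquiv (fun _ : Fin (t + 1) => ι)) (i, w')
          = (Fin.cons i w' : Fin (t + 1) → ι) := rfl
      have e2 : Fin.tail (Fin.cons i w' : Fin (t + 1) → ι) = w' := by
        funext l
        simp [Fin.tail]
      have e3 : (Fin.cons i w' : Fin (t + 1) → ι) 0 = i := by simp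
      rw [e1]
      show flips t (Fin.tail (Fin.cons i w' : Fin (t + 1) → ι))
          (flip ((Fin.cons i w' : Fin (t + 1) → ι) 0) a) = flips t w' (flip i a)
      rw [e2, e3]
    simp only [hc]
    rw [pow_succ, ← Finset.mul_sum]
    ring

/-- displacement after `t` distinct flips -/
lemma cubeF_flips (x : ι → X) (t : ℕ) (w : Fin t → ι) (hw : Function.Injective w)
    (a : ι → Bool) :
    cubeF x (flips t w a) - cubeF x a = ∑ l, sgn (a (w l)) (x (w l)) := by
  induction t generalizing a with
  | zero => simp [flips]
  | succ t ih =>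
    have htail : Function.Injective (Fin.tail w) := by
      intro l l' h
      have := hw h
      exact Fin.succ_injective _ this
    have h1 := ih (Fin.tail w) htail (flip (w 0) a)
    have h2 : ∀ l : Fin t, flip (w 0) a (Fin.tail w l) = a (Fin.tail w l) := by
      intro l
      apply flip_apply_ne
      intro h
      have := hw h
      exact Fin.succ_ne_zero l this
    simp only [h2] at h1
    rw [Fin.sum_univ_succ]
    have h3 : flips (t + 1) w a = flips t (Fin.tail w) (flip (w 0) a) := rfl
    rw [h3]
    have h4 := cubeF_flip x (w 0) a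
    have h5 : ∀ l : Fin t, Fin.tail w l = w l.succ := fun l => rfl
    simp only [h5] at h1
    rw [← h1, h4]
    abel

end

end Vale.Agent.Lib.P125
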