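import Vale.Agent.Lib.P125.Cube

/-!
# From the cube inequality to uniform non-squareness
-/

namespace Vale.Agent.Lib.P125

open Finset

lemma sum_ite_ne (n : ℕ) (c : ℝ) (k : Fin n) :
    ∑ k' : Fin n, (if k = k' then 0 else c) = (n : ℝ) * c - c := by
  have : ∀ k' : Fin n, (if k = k' then (0 : ℝ) else c) = c - (if k = k' then c else 0) := by
    intro k'
    split_ifs <;> ring
  simp only [this, Finset.sum_sub_distrib, Finset.sum_const, Finset.card_univ, Fintype.card_fin,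
    nsmul_eq_mul, Finset.sum_ite_eq, Finset.mem_univ, if_true]

lemma sum_special (n : ℕ) (g : Bool → Bool → ℝ) :
    ∑ i : Bool × Fin n, ∑ j : Bool × Fin n, (if i = j then 0 else g i.1 j.1)
      = ((n : ℝ) ^ 2 - n) * (g true true + g false false)
        + (n : ℝ) ^ 2 * (g true false + g false true) := by
  simp only [Fintype.sum_prod_type, Fintype.sum_bool, Prod.mk.injEq, true_and,
    Bool.true_eq_false, Bool.false_eq_true, false_and, if_false, Finset.sum_add_distrib,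
    sum_ite_ne, Finset.sum_const, Finset.card_univ, Fintype.card_fin, nsmul_eq_mul]
  ring

variable {X : Type*} [NormedAddCommGroup X] [NormedSpace ℝ X]

/-- A normed space with Markov type `p` and constant `K` satisfies
`‖x + y‖^p + ‖x - y‖^p ≤ (4 K^p - 2^(p-1)) (‖x‖^p + ‖y‖^p)`. -/
theorem markov_parallelogram (p K : ℝ) (hp : 0 < p) (hM : HasMarkovType X p K) (x y : X) :
    ‖x + y‖ ^ p + ‖x - y‖ ^ p ≤ (4 * K ^ p - 2 ^ (p - 1)) * (‖x‖ ^ p + ‖y‖ ^ p) := by
  set T : ℝ := ‖x‖ ^ p + ‖y‖ ^ p with hT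
  set s : ℝ := ‖x + y‖ ^ p + ‖x - y‖ ^ p with hs
  have hT0 : 0 ≤ T := by
    rw [hT]
    have h1 : 0 ≤ ‖x‖ ^ p := Real.rpow_nonneg (norm_nonneg x) p
    have h2 : 0 ≤ ‖y‖ ^ p := Real.rpow_nonneg (norm_nonneg y) p
    linarith
  have h2p : (2 : ℝ) ^ p = 2 * 2 ^ (p - 1) := by
    rw [Real.rpow_sub_one (by norm_num : (2 : ℝ) ≠ 0) p]
    ring
  have h2pos : 0 < (2 : ℝ) ^ (p - 1) := Real.rpow_pos_of_pos (by norm_num) _
  -- the inequality for `n` copies of `x` and `n` copies of `y`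
  have hn : ∀ m : ℕ, ((m : ℝ) + 1) * s ≤
      ((m : ℝ) + 1) * ((4 * K ^ p - 2 ^ (p - 1)) * T) + 2 ^ (p - 1) * T := by
    intro m
    have key := pair_ineq (ι := Bool × Fin (m + 1)) p K hp hM
      (fun i => if i.1 then x else y)
    have hg := sum_special (m + 1)
      (fun b b' => ‖(if b then x else y) + (if b' then x else y)‖ ^ p
        + ‖(if b then x else y) - (if b' then x else y)‖ ^ p)
    simp only at hg
    rw [hg] at key
    have hxx : ‖x + x‖ ^ p = 2 ^ p * ‖x‖ ^ p := by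
      rw [← two_smul ℝ x, norm_smul, Real.norm_eq_abs, abs_of_pos (by norm_num : (0 : ℝ) < 2),
        Real.mul_rpow (by norm_num) (norm_nonneg x)]
    have hyy : ‖y + y‖ ^ p = 2 ^ p * ‖y‖ ^ p := by
      rw [← two_smul ℝ y, norm_smul, Real.norm_eq_abs, abs_of_pos (by norm_num : (0 : ℝ) < 2),
        Real.mul_rpow (by norm_num) (norm_nonneg y)]
    have h0 : (0 : ℝ) ^ p = 0 := Real.zero_rpow (ne_of_gt hp)
    have hyx1 : ‖y + x‖ = ‖x + y‖ := by rw [add_comm]
    have hyx2 : ‖y - x‖ = ‖x - y‖ := norm_sub_rev y x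
    have hsum : ∑ i : Bool × Fin (m + 1), ‖(if i.1 then x else y)‖ ^ p
        = ((m : ℝ) + 1) * T := by
      simp only [Fintype.sum_prod_type, Fintype.sum_bool, if_true, Bool.false_eq_true, if_false,
        Finset.sum_const, Finset.card_univ, Fintype.card_fin, nsmul_eq_mul]
      rw [hT]
      push_cast
      ring
    have hcard : (Fintype.card (Bool × Fin (m + 1)) : ℝ) = 2 * ((m : ℝ) + 1) := by
      simp only [Fintype.card_prod, Fintype.card_bool, Fintype.card_fin]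
      push_cast
      ring
    rw [hsum, hcard] at key
    simp only [if_true, Bool.false_eq_true, if_false, sub_self, norm_zero, h0, add_zero, hxx, hyy,
      hyx1, hyx2] at key
    push_cast at key
    have hm : (0 : ℝ) < (m : ℝ) + 1 := by positivity
    -- `key : ((m+1)^2 - (m+1)) * (2^p ‖x‖^p + 2^p ‖y‖^p) + (m+1)^2 * (s + s) ≤ 4 K^p (2 (m+1)) ((m+1) T)`
    have key' : ((m : ℝ) + 1) * (((m : ℝ) + 1) * s) ≤ ((m : ℝ) + 1) *
        (((m : ℝ) + 1) * ((4 * K ^ p - 2 ^ (p - 1)) * T) + 2 ^ (p - 1) * T) := by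
      rw [h2p] at key
      rw [hT, hs]
      rw [hT] at key
      nlinarith [key]
    exact le_of_mul_le_mul_left key' hm
  by_contra hcon
  have hgap : 0 < s - (4 * K ^ p - 2 ^ (p - 1)) * T := by
    have := not_le.1 hcon
    linarith
  obtain ⟨m, hm⟩ := exists_nat_gt (2 ^ (p - 1) * T / (s - (4 * K ^ p - 2 ^ (p - 1)) * T))
  have h1 := hn m
  have h2 : 2 ^ (p - 1) * T < (m : ℝ) * (s - (4 * K ^ p - 2 ^ (p - 1)) * T) := by
    rwa [div_lt_iff₀ hgap] at hm
  nlinarith [h1, h2, hgap]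

/-- If `8 K^p < 3 · 2^p`, a normed space with Markov type `p` and constant `K` is uniformly
non-square. -/
theorem markov_nonsquare (p K : ℝ) (hp : 0 < p) (hM : HasMarkovType X p K)
    (hK : 8 * K ^ p < 3 * 2 ^ p) :
    ∃ δ : ℝ, 0 < δ ∧ ∀ x y : X, ‖x‖ ≤ 1 → ‖y‖ ≤ 1 → ‖x + y‖ ≤ 2 - δ ∨ ‖x - y‖ ≤ 2 - δ := by
  have h2p : (2 : ℝ) ^ p = 2 * 2 ^ (p - 1) := by
    rw [Real.rpow_sub_one (by norm_num : (2 : ℝ) ≠ 0) p]
    ring
  have h2pos : 0 < (2 : ℝ) ^ (p - 1) := Real.rpow_pos_of_pos (by norm_num) _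
  set C : ℝ := 4 * K ^ p - 2 ^ (p - 1) with hC
  have hClt : C < 2 ^ p := by rw [hC]; linarith
  -- `c` with `C < c^p` and `c < 2`
  set c : ℝ := (max C 0 + 2 ^ p) / 2 with hc
  have hc0 : 0 < c := by
    rw [hc]
    have : 0 ≤ max C 0 := le_max_right _ _
    have : 0 < (2 : ℝ) ^ p := Real.rpow_pos_of_pos (by norm_num) _
    linarith
  have hcC : C < c := by
    rw [hc]
    have : C ≤ max C 0 := le_max_left _ _
    linarith
  have hc2 : c < 2 ^ p := by
    rw [hc]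
    have : max C 0 < 2 ^ p := max_lt hClt (Real.rpow_pos_of_pos (by norm_num) _)
    linarith
  -- `r = c^(1/p) < 2`
  set r : ℝ := c ^ (1 / p) with hr
  have hr0 : 0 < r := Real.rpow_pos_of_pos hc0 _
  have hrp : r ^ p = c := by
    rw [hr, ← Real.rpow_mul (le_of_lt hc0), one_div, inv_mul_cancel₀ (ne_of_gt hp),
      Real.rpow_one]
  have hr2 : r < 2 := by
    by_contra hge
    have hge' : (2 : ℝ) ≤ r := not_lt.1 hge
    have : (2 : ℝ) ^ p ≤ r ^ p := Real.rpow_le_rpow (by norm_num) hge' (le_of_lt hp)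
    rw [hrp] at this
    linarith
  refine ⟨2 - r, by linarith, ?_⟩
  intro x y hx hy
  have hmain := markov_parallelogram p K hp hM x y
  rw [← hC] at hmain
  have hxp : ‖x‖ ^ p ≤ 1 := Real.rpow_le_one (norm_nonneg x) hx (le_of_lt hp)
  have hyp : ‖y‖ ^ p ≤ 1 := Real.rpow_le_one (norm_nonneg y) hy (le_of_lt hp)
  have hx0 : 0 ≤ ‖x‖ ^ p := Real.rpow_nonneg (norm_nonneg x) p
  have hy0 : 0 ≤ ‖y‖ ^ p := Real.rpow_nonneg (norm_nonneg y) p
  by_contra hboth
  rw [not_or] at hboth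
  obtain ⟨h1, h2⟩ := hboth
  have h1' : r < ‖x + y‖ := by linarith [not_le.1 h1]
  have h2' : r < ‖x - y‖ := by linarith [not_le.1 h2]
  have h1p : c < ‖x + y‖ ^ p := by
    rw [← hrp]; exact Real.rpow_lt_rpow (le_of_lt hr0) h1' hp
  have h2p' : c < ‖x - y‖ ^ p := by
    rw [← hrp]; exact Real.rpow_lt_rpow (le_of_lt hr0) h2' hp
  -- `2 c < C (‖x‖^p + ‖y‖^p) ≤ 2 max(C, 0) ≤ 2 c`
  have hCmax : C * (‖x‖ ^ p + ‖y‖ ^ p) ≤ 2 * max C 0 := by
    by_cases hCs : 0 ≤ C
    · rw [max_eq_left hCs]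
      nlinarith
    · have hCneg : C < 0 := not_le.1 hCs
      rw [max_eq_right (le_of_lt hCneg)]
      nlinarith
  have hmaxc : max C 0 < c := by
    rw [hc]
    have : max C 0 < 2 ^ p := max_lt hClt (Real.rpow_pos_of_pos (by norm_num) _)
    linarith
  linarith

end Vale.Agent.Lib.P125
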